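import Vale.Agent.P069_h23.Reflexive2

namespace Vale.Agent.P069h23

/-- the one-signed truncation of the path sums of `ψ`, sign opposite to the path sums of `α` -/
noncomputable def om (α ψ : Idx →₀ ℝ) (n : ℕ) (l : List ℕ) : ℝ :=
  if 0 ≤ psum α n l then min (psum ψ n l) 0 else max (psum ψ n l) 0

/-- its increments -/
noncomputable def chiF (α ψ : Idx →₀ ℝ) : Idx → ℝ
  | (n, []) => om α ψ n []
  | (n, a :: l) => om α ψ n (a :: l) - om α ψ n l

lemma abs_chiF_le {S : Set Idx} (hS : PC S) {α ψ : Idx →₀ ℝ} (hα : ∀ s, s ∉ S → α s = 0)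
    (hψ : ∀ s ∈ S, ψ s = 0) (s : Idx) : |chiF α ψ s| ≤ |ψ s| := by
  rcases s with ⟨n, l⟩
  rcases l with _ | ⟨a, l⟩
  · change |om α ψ n []| ≤ |psum ψ n []|
    unfold om
    split_ifs
    · rcases le_total (psum ψ n []) 0 with h | h
      · rw [min_eq_left h]
      · rw [min_eq_right h, abs_zero]; exact abs_nonneg _
    · rcases le_total (psum ψ n []) 0 with h | h
      · rw [max_eq_right h, abs_zero]; exact abs_nonneg _
      · rw [max_eq_left h]
  · by_cases hm : (n, a :: l) ∈ S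
    · have h1 := psum_eq_zero hS ψ hψ n _ hm
      have h2 := psum_eq_zero hS ψ hψ n _ (hS n a l hm)
      simp [chiF, om, h1, h2]
    · have h1 : psum α n (a :: l) = psum α n l := by simp [hα _ hm]
      simp only [chiF, om, h1]
      have h2 : psum ψ n (a :: l) = ψ (n, a :: l) + psum ψ n l := rfl
      rw [h2]
      set x := ψ (n, a :: l)
      set p := psum ψ n l
      split_ifs
      · rw [abs_le]
        rcases le_total (x + p) 0 with h3 | h3 <;> rcases le_total p 0 with h4 | h4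
        · rw [min_eq_left h3, min_eq_left h4, add_sub_cancel_right]
          exact ⟨neg_abs_le x, le_abs_self x⟩
        · rw [min_eq_left h3, min_eq_right h4]
          constructor <;> linarith [neg_abs_le x, le_abs_self x, abs_nonneg x]
        · rw [min_eq_right h3, min_eq_left h4]
          constructor <;> linarith [neg_abs_le x, le_abs_self x, abs_nonneg x]
        · rw [min_eq_right h3, min_eq_right h4]
          constructor <;> linarith [abs_nonneg x]
      · rw [abs_le]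
        rcases le_total (x + p) 0 with h3 | h3 <;> rcases le_total p 0 with h4 | h4
        · rw [max_eq_right h3, max_eq_right h4]
          constructor <;> linarith [abs_nonneg x]
        · rw [max_eq_right h3, max_eq_left h4]
          constructor <;> linarith [neg_abs_le x, le_abs_self x, abs_nonneg x]
        · rw [max_eq_left h3, max_eq_right h4]
          constructor <;> linarith [neg_abs_le x, le_abs_self x, abs_nonneg x]
        · rw [max_eq_left h3, max_eq_left h4, add_sub_cancel_right]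
          exact ⟨neg_abs_le x, le_abs_self x⟩

lemma exists_chi {S : Set Idx} (hS : PC S) {α ψ : Idx →₀ ℝ} (hα : ∀ s, s ∉ S → α s = 0)
    (hψ : ∀ s ∈ S, ψ s = 0) : ∃ χ : Idx →₀ ℝ, (∀ s, χ s = chiF α ψ s) ∧ (∀ s, |χ s| ≤ |ψ s|) ∧
      ∀ n l, psum χ n l = om α ψ n l := by
  classical
  have h0 : ∀ s, chiF α ψ s ≠ 0 → s ∈ ψ.support := by
    intro s hs
    rw [Finsupp.mem_support_iff]
    intro h
    have := abs_chiF_le hS hα hψ s
    rw [h, abs_zero] at this
    exact hs (abs_nonpos_iff.1 this)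
  refine ⟨Finsupp.onFinset ψ.support (chiF α ψ) h0, fun s => rfl,
    fun s => abs_chiF_le hS hα hψ s, ?_⟩
  intro n l
  induction l with
  | nil => rfl
  | cons a l ih => rw [psum_cons, ih]; simp [chiF]

lemma om_sub (α ψ : Idx →₀ ℝ) (n : ℕ) (l : List ℕ) :
    om α ψ n l - om α (-ψ) n l = psum ψ n l := by
  have h : psum (-ψ) n l = - psum ψ n l := by
    have := psum_smul (-1) ψ n l
    simpa using this
  simp only [om, h]
  split_ifs
  · rcases le_total (psum ψ n l) 0 with h | h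
    · rw [min_eq_left h, min_eq_right (by linarith)]; ring
    · rw [min_eq_right h, min_eq_left (by linarith)]; ring
  · rcases le_total (psum ψ n l) 0 with h | h
    · rw [max_eq_right h, max_eq_left (by linarith)]; ring
    · rw [max_eq_left h, max_eq_right (by linarith)]; ring

lemma chiF_sub (α ψ : Idx →₀ ℝ) (s : Idx) : chiF α ψ s - chiF α (-ψ) s = ψ s := by
  rcases s with ⟨n, l⟩
  rcases l with _ | ⟨a, l⟩
  · simp only [chiF]; rw [om_sub]; rfl
  · simp only [chiF]
    have h1 := om_sub α ψ n (a :: l)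
    have h2 := om_sub α ψ n l
    rw [psum_cons] at h1
    linarith

lemma key_nrm {S : Set Idx} {α ψ χ : Idx →₀ ℝ} (hα : ∀ s, s ∉ S → α s = 0)
    (hψ : ∀ s ∈ S, ψ s = 0) (hχ : ∀ s, |χ s| ≤ |ψ s|) (hχ' : ∀ n l, psum χ n l = om α ψ n l)
    {A B : ℝ} (hA : 0 ≤ A) (hB : 0 ≤ B) :
    nrm (A • α + B • χ) ^ 2 ≤ A ^ 2 * nrm α ^ 2 + B ^ 2 * nrm ψ ^ 2 := by
  apply nrm_sq_le
  intro c D
  have h1 := mul_le_mul_of_nonneg_left (sum_le_nrm_sq c D α) (sq_nonneg A)
  have h2 := mul_le_mul_of_nonneg_left (sum_le_nrm_sq c D ψ) (sq_nonneg B)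
  refine le_trans ?_ (add_le_add h1 h2)
  rw [Finset.mul_sum, Finset.mul_sum, ← Finset.sum_add_distrib]
  refine Finset.sum_le_sum (fun i _ => ?_)
  rw [co_add, co_smul, co_smul]
  rcases i with s | n
  · simp only [co_inl]
    have h3 : χ s ^ 2 ≤ ψ s ^ 2 := sq_le_sq.2 (hχ s)
    by_cases hs : s ∈ S
    · have h4 : χ s = 0 := by
        have := hχ s
        rw [hψ s hs, abs_zero] at this
        exact abs_nonpos_iff.1 this
      rw [h4]
      nlinarith [mul_nonneg (sq_nonneg B) (sq_nonneg (ψ s))]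
    · rw [hα s hs]
      nlinarith [mul_le_mul_of_nonneg_left h3 (sq_nonneg B)]
  · simp only [co_inr]
    rw [hχ']
    set C := psum α n (c.1 n)
    have h3 : C * om α ψ n (c.1 n) ≤ 0 := by
      simp only [om]
      split_ifs with h
      · exact mul_nonpos_of_nonneg_of_nonpos h (min_le_right _ _)
      · exact mul_nonpos_of_nonpos_of_nonneg (le_of_lt (not_le.1 h)) (le_max_right _ _)
    have h4 : (om α ψ n (c.1 n)) ^ 2 ≤ (psum ψ n (c.1 n)) ^ 2 := by
      apply sq_le_sq.2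
      simp only [om]
      split_ifs
      · rcases le_total (psum ψ n (c.1 n)) 0 with h | h
        · rw [min_eq_left h]
        · rw [min_eq_right h]; simp
      · rcases le_total (psum ψ n (c.1 n)) 0 with h | h
        · rw [max_eq_right h]; simp
        · rw [max_eq_left h]
    have h5 : A * B * (C * om α ψ n (c.1 n)) ≤ 0 :=
      mul_nonpos_of_nonneg_of_nonpos (mul_nonneg hA hB) h3
    nlinarith [mul_le_mul_of_nonneg_left h4 (sq_nonneg B)]

lemma exists_norming (f : X0) {η : ℝ} (hη : 0 < η) : ∃ φ : Y0, ‖φ‖ ≤ 1 ∧ ‖f‖ - η ≤ f φ := by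
  rcases le_or_gt ‖f‖ η with h | h
  · exact ⟨0, by simp, by simp; linarith⟩
  · obtain ⟨φ, h1, h2⟩ := f.exists_lt_apply_of_lt_opNorm (r := ‖f‖ - η) (by linarith)
    rw [Real.norm_eq_abs] at h2
    rcases le_total 0 (f φ) with h3 | h3
    · exact ⟨φ, h1.le, by rw [abs_of_nonneg h3] at h2; exact h2.le⟩
    · exact ⟨-φ, by rw [norm_neg]; exact h1.le, by
        rw [abs_of_nonpos h3] at h2; rw [map_neg]; exact h2.le⟩

/-- the finite codimensional subspaces used -/
noncomputable def cofSub (S : Finset Idx) : Submodule ℝ X0 :=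
  (ContinuousLinearMap.pi (fun s : S => J (dlt s.1)) : X0 →L[ℝ] (S → ℝ)).ker

lemma mem_cofSub (S : Finset Idx) (y : X0) : y ∈ cofSub S ↔ ∀ s ∈ S, y (dlt s) = 0 := by
  rw [cofSub, LinearMap.mem_ker]
  constructor
  · intro h s hs
    have := congrFun h ⟨s, hs⟩
    exact this
  · intro h
    ext s
    exact h s.1 s.2

lemma isCof_cofSub (S : Finset Idx) : IsCof (cofSub S) := by
  constructor
  · exact ContinuousLinearMap.isClosed_ker _
  · rw [cofSub]
    exact Module.Finite.equiv (LinearMap.quotKerEquivRange _).symm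

lemma common_est {S : Finset Idx} {x : X0} {η : ℝ} (hη : 0 ≤ η)
    (hS : ∀ φ : Y0, (∀ s ∈ S, toF φ s = 0) → |x φ| ≤ η * ‖φ‖)
    (φS : Y0) (hα : ∀ s, s ∉ (S : Set Idx) → toF φS s = 0) (hnφS : nrm (toF φS) ≤ 1)
    {A B : ℝ} (hA0 : 0 ≤ A) (hB0 : 0 ≤ B) (hAB : A ^ 2 + 4 * B ^ 2 = 1)
    (ψ'' χ : Idx →₀ ℝ) (e1 : ∀ s ∈ (S : Set Idx), ψ'' s = 0) (e2 : nrm ψ'' ≤ 2)
    (e3 : ∀ s, |χ s| ≤ |ψ'' s|) (e4 : ∀ n l, psum χ n l = om (toF φS) ψ'' n l) :
    ‖A • φS + B • toF.symm χ‖ ≤ 1 ∧ |x (toF.symm χ)| ≤ 2 * η := by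
  constructor
  · have h1 := key_nrm hα e1 e3 e4 hA0 hB0
    have h2 : ‖A • φS + B • toF.symm χ‖ ^ 2 ≤ 1 ^ 2 := by
      rw [norm_def, map_add, map_smul, map_smul, LinearEquiv.apply_symm_apply]
      refine h1.trans ?_
      have h3 : nrm (toF φS) ^ 2 ≤ 1 := by
        nlinarith [nrm_nonneg (toF φS)]
      have h4 : nrm ψ'' ^ 2 ≤ 4 := by nlinarith [nrm_nonneg ψ'']
      nlinarith [mul_le_mul_of_nonneg_left h3 (sq_nonneg A),
        mul_le_mul_of_nonneg_left h4 (sq_nonneg B)]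
    exact le_of_sq_le_sq h2 zero_le_one
  · have h1 := key_nrm hα e1 e3 e4 (A := 0) (B := 1) le_rfl zero_le_one
    have h2 : nrm χ ≤ 2 := by
      apply le_of_sq_le_sq _ (by norm_num)
      have h5 : (0:ℝ) • (toF φS) + (1:ℝ) • χ = χ := by simp
      rw [h5] at h1
      nlinarith [nrm_nonneg ψ'']
    have h3 : |x (toF.symm χ)| ≤ η * ‖toF.symm χ‖ := by
      apply hS
      intro s hs
      rw [LinearEquiv.apply_symm_apply]
      have := e3 s
      rw [e1 s hs, abs_zero] at this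
      exact abs_nonpos_iff.1 this
    rw [norm_def, LinearEquiv.apply_symm_apply] at h3
    nlinarith

lemma apply_comb_add (x y : X0) (t A B : ℝ) (φ χ : Y0) :
    (x + t • y) (A • φ + B • χ) = A * x φ + B * x χ + t * (A * y φ + B * y χ) := by
  have h1 : (x + t • y) (A • φ + B • χ) = x (A • φ + B • χ) + t * y (A • φ + B • χ) := rfl
  rw [h1, map_add, map_add, map_smul, map_smul, map_smul, map_smul]
  simp only [smul_eq_mul]

lemma final_real {t η A B r X Y Z : ℝ} (ht : 0 < t) (hη : 0 < η) (hA0 : 0 ≤ A) (hB0 : 0 ≤ B)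
    (hA1 : A ≤ 1) (hB1 : B ≤ 1 / 2) (hval : A + t * B / 2 = r)
    (hX : 1 - 3 * η ≤ X) (hY : -(2 * η) ≤ Y) (hZ : (1 - η) / 2 ≤ Z) :
    r - η * (4 + t) ≤ A * X + B * Y + t * (B * Z) := by
  have h4 : A * (1 - 3 * η) ≤ A * X := mul_le_mul_of_nonneg_left hX hA0
  have h5 : B * (-(2 * η)) ≤ B * Y := mul_le_mul_of_nonneg_left hY hB0
  have h6 : t * (B * ((1 - η) / 2)) ≤ t * (B * Z) :=
    mul_le_mul_of_nonneg_left (mul_le_mul_of_nonneg_left hZ hB0) ht.le
  have h7 : A * η ≤ 1 * η := mul_le_mul_of_nonneg_right hA1 hη.le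
  have h8 : B * η ≤ 1 / 2 * η := mul_le_mul_of_nonneg_right hB1 hη.le
  have h9 : t * (B * η) ≤ t * (1 / 2 * η) := mul_le_mul_of_nonneg_left h8 ht.le
  nlinarith [mul_pos ht hη]

lemma params {t : ℝ} (ht : 0 < t) : ∃ A B : ℝ, 0 ≤ A ∧ 0 ≤ B ∧ A ≤ 1 ∧ B ≤ 1 / 2 ∧
    A ^ 2 + 4 * B ^ 2 = 1 ∧ A + t * B / 2 = Real.sqrt (1 + t ^ 2 / 16) := by
  set r := Real.sqrt (1 + t ^ 2 / 16) with hr
  have hr2 : r ^ 2 = 1 + t ^ 2 / 16 := Real.sq_sqrt (by positivity)
  have hr1 : 1 ≤ r := by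
    rw [hr]; apply Real.le_sqrt_of_sq_le; nlinarith [sq_nonneg t]
  have hrpos : 0 < r := by linarith
  refine ⟨1 / r, t / (8 * r), by positivity, by positivity, ?_, ?_, ?_, ?_⟩
  · rw [div_le_one hrpos]; exact hr1
  · rw [div_le_iff₀ (by positivity)]
    have : t ≤ 4 * r := by
      apply le_of_sq_le_sq _ (by positivity)
      nlinarith
    linarith
  · field_simp; nlinarith
  · field_simp; nlinarith

lemma main_est (x : X0) (hx : ‖x‖ = 1) {t : ℝ} (ht : 0 < t) {η : ℝ} (hη : 0 < η) :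
    ∃ S : Finset Idx, ∀ y : X0, (∀ s ∈ S, y (dlt s) = 0) → ‖y‖ = 1 →
      Real.sqrt (1 + t ^ 2 / 16) - η * (4 + t) ≤ max ‖x + t • y‖ ‖x - t • y‖ := by
  obtain ⟨S, hPC, hS⟩ := approx x hη
  refine ⟨S, ?_⟩
  intro y hy0 hy1
  obtain ⟨φ, hφ1, hφ2⟩ := exists_norming x hη
  obtain ⟨ψ, hψ1, hψ2⟩ := exists_norming y hη
  rw [hx] at hφ2
  rw [hy1] at hψ2
  obtain ⟨A, B, hA0, hB0, hA1, hB1, hAB, hval⟩ := params ht
  -- the pieces
  obtain ⟨φS, hφS⟩ : ∃ φS : Y0, φS = rsL (S : Set Idx) hPC φ := ⟨_, rfl⟩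
  obtain ⟨ψ', hψ'⟩ : ∃ ψ' : Y0, ψ' = ψ - rsL (S : Set Idx) hPC ψ := ⟨_, rfl⟩
  have hα : ∀ s, s ∉ (S : Set Idx) → toF φS s = 0 := by
    intro s hs; rw [hφS, toF_rsL, rs_apply_of_notMem hs]
  have hψz : ∀ s ∈ (S : Set Idx), toF ψ' s = 0 := by
    intro s hs; rw [hψ', map_sub, Finsupp.sub_apply, toF_rsL, rs_apply_of_mem hs, sub_self]
  have hnφS : ‖φS‖ ≤ 1 := by rw [hφS]; exact (norm_rsL_apply_le _ _ _).trans hφ1
  have hnψ' : ‖ψ'‖ ≤ 2 := by
    rw [hψ']
    refine (norm_sub_le _ _).trans ?_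
    have := norm_rsL_apply_le (S : Set Idx) hPC ψ
    linarith
  have hyS : ∀ θ : Y0, y (rsL (S : Set Idx) hPC θ) = 0 := by
    intro θ
    rw [apply_expand]
    apply Finset.sum_eq_zero
    intro s _
    by_cases h : s ∈ (S : Set Idx)
    · rw [hy0 s h, mul_zero]
    · rw [toF_rsL, rs_apply_of_notMem h, zero_mul]
  have hyψ' : 1 - η ≤ y ψ' := by
    rw [hψ', map_sub, hyS, sub_zero]; exact hψ2
  have hyφS : y φS = 0 := by rw [hφS]; exact hyS φ
  have hxφS : 1 - 3 * η ≤ x φS := by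
    have h1 : |x (φ - φS)| ≤ η * ‖φ - φS‖ := by
      apply hS
      intro s hs
      rw [map_sub, Finsupp.sub_apply, hφS, toF_rsL, rs_apply_of_mem hs, sub_self]
    have h2 : ‖φ - φS‖ ≤ 2 := (norm_sub_le _ _).trans (by linarith)
    have h3 : |x (φ - φS)| ≤ η * 2 := h1.trans (mul_le_mul_of_nonneg_left h2 hη.le)
    rw [map_sub] at h3
    have := (abs_le.1 h3).2
    linarith
  obtain ⟨χ1, c1, c2, c3⟩ := exists_chi hPC hα hψz
  have hψz' : ∀ s ∈ (S : Set Idx), (-(toF ψ')) s = 0 := by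
    intro s hs; rw [Finsupp.neg_apply, hψz s hs, neg_zero]
  obtain ⟨χ2, d1, d2, d3⟩ := exists_chi hPC hα hψz'
  obtain ⟨f1, f2⟩ := common_est hη.le hS φS hα hnφS hA0 hB0 hAB (toF ψ') χ1 hψz hnψ' c2 c3
  obtain ⟨g1, g2⟩ := common_est hη.le hS φS hα hnφS hA0 hB0 hAB (-(toF ψ')) χ2 hψz'
    (by rw [nrm_neg]; exact hnψ') d2 d3
  have hdiff : toF.symm χ1 - toF.symm χ2 = ψ' := by
    apply toF.injective
    rw [map_sub, LinearEquiv.apply_symm_apply, LinearEquiv.apply_symm_apply]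
    ext s
    rw [Finsupp.sub_apply, c1, d1, chiF_sub]
  have hsum : 1 - η ≤ y (toF.symm χ1) - y (toF.symm χ2) := by
    rw [← map_sub, hdiff]; exact hyψ'
  rcases le_total ((1 - η) / 2) (y (toF.symm χ1)) with hcase | hcase
  · refine le_trans ?_ (le_max_left _ _)
    have h1 : (x + t • y) (A • φS + B • toF.symm χ1) ≤ ‖x + t • y‖ := by
      refine (le_abs_self _).trans (((x + t • y).le_opNorm _).trans ?_)
      exact mul_le_of_le_one_right (norm_nonneg _) f1
    refine le_trans ?_ h1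
    rw [apply_comb_add, hyφS, mul_zero, zero_add]
    exact final_real ht hη hA0 hB0 hA1 hB1 hval hxφS (abs_le.1 f2).1 hcase
  · have hcase' : (1 - η) / 2 ≤ -y (toF.symm χ2) := by linarith
    refine le_trans ?_ (le_max_right _ _)
    have h1 : (x + t • (-y)) (A • φS + B • toF.symm χ2) ≤ ‖x + t • (-y)‖ := by
      refine (le_abs_self _).trans (((x + t • (-y)).le_opNorm _).trans ?_)
      exact mul_le_of_le_one_right (norm_nonneg _) g1
    have h0 : x + t • (-y) = x - t • y := by rw [smul_neg, sub_eq_add_neg]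
    rw [← h0]
    refine le_trans ?_ h1
    have h2 : (-y) φS = 0 := by
      have : (-y) φS = -(y φS) := rfl
      rw [this, hyφS, neg_zero]
    have h3 : (-y) (toF.symm χ2) = -(y (toF.symm χ2)) := rfl
    rw [apply_comb_add, h2, h3, mul_zero, zero_add]
    exact final_real ht hη hA0 hB0 hA1 hB1 hval hxφS (abs_le.1 g2).1 hcase'

theorem X0_modulus {t : ℝ} (ht : 0 < t) :
    ((Real.sqrt (1 + t ^ 2 / 16) - 1 : ℝ) : EReal) ≤ amucModulus (normSeminorm ℝ X0) t := by
  set r := Real.sqrt (1 + t ^ 2 / 16) with hr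
  apply EReal.ge_of_forall_gt_iff_ge.1
  intro z hz
  have hz' : z < r - 1 := by exact_mod_cast hz
  unfold amucModulus
  refine le_iInf (fun x => ?_)
  have hx : ‖x.1‖ = 1 := by simpa using x.2
  obtain ⟨S, hS⟩ := main_est x.1 hx ht (η := (r - 1 - z) / (4 + t))
    (div_pos (by linarith) (by positivity))
  refine le_trans ?_ (le_iSup _ ⟨cofSub S, isCof_cofSub S⟩)
  refine le_iInf (fun y => ?_)
  have hy1 : ‖y.1‖ = 1 := by simpa using y.2.2
  have h := hS y.1 ((mem_cofSub S y.1).1 y.2.1) hy1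
  rw [EReal.coe_le_coe_iff]
  have h2 : (r - 1 - z) / (4 + t) * (4 + t) = r - 1 - z := by
    field_simp
  rw [h2] at h
  simp only [coe_normSeminorm]
  linarith

theorem X0_amuc : AMUCRenormable X0 := by
  refine ⟨normSeminorm ℝ X0, ⟨1, 1, one_pos, one_pos, fun x => by simp⟩, ?_⟩
  intro t ht
  refine lt_of_lt_of_le ?_ (X0_modulus ht)
  have : 1 < Real.sqrt (1 + t ^ 2 / 16) := by
    apply Real.lt_sqrt_of_sq_lt; nlinarith [sq_pos_of_pos ht]
  have : (0:ℝ) < Real.sqrt (1 + t ^ 2 / 16) - 1 := by linarith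
  exact_mod_cast this

/-- the coordinate functionals span a dense subspace -/
theorem X0_separable : TopologicalSpace.SeparableSpace X0 := by
  classical
  have hdense : ∀ f : X0, f ∈ closure (Submodule.span ℝ (Set.range Ef) : Set X0) := by
    intro f
    rw [Metric.mem_closure_iff]
    intro ε hε
    obtain ⟨S, hPC, hS⟩ := approx f (ε := ε / 4) (by positivity)
    refine ⟨∑ s ∈ S, f (dlt s) • Ef s, ?_, ?_⟩
    · exact Submodule.sum_mem _ (fun s _ => Submodule.smul_mem _ _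
        (Submodule.subset_span ⟨s, rfl⟩))
    · rw [dist_eq_norm]
      have : ‖f - ∑ s ∈ S, f (dlt s) • Ef s‖ ≤ ε / 2 := by
        apply ContinuousLinearMap.opNorm_le_bound _ (by positivity)
        intro φ
        have hev : (f - ∑ s ∈ S, f (dlt s) • Ef s) φ = f (φ - rsL (S : Set Idx) hPC φ) := by
          have d2 : rsL (S : Set Idx) hPC φ = ∑ s ∈ S, toF φ s • dlt s := by
            apply toF.injective
            ext s
            rw [toF_sum_smul_dlt, toF_rsL]
            by_cases h2 : s ∈ (S : Set Idx)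
            · rw [rs_apply_of_mem h2, if_pos (by exact_mod_cast h2)]
            · rw [rs_apply_of_notMem h2, if_neg (by exact_mod_cast h2)]
          rw [map_sub, d2, map_sum, _root_.sub_apply, _root_.sum_apply]
          congr 1
          refine Finset.sum_congr rfl (fun s _ => ?_)
          rw [map_smul, _root_.smul_apply, Ef_apply, smul_eq_mul, smul_eq_mul, mul_comm]
        rw [hev, Real.norm_eq_abs]
        refine (hS _ ?_).trans ?_
        · intro s hs
          rw [map_sub, Finsupp.sub_apply, toF_rsL, rs_apply_of_mem (by exact_mod_cast hs), sub_self]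
        · have c2 : ‖φ - rsL (S : Set Idx) hPC φ‖ ≤ 2 * ‖φ‖ := by
            refine (norm_sub_le _ _).trans ?_
            have := norm_rsL_apply_le (S : Set Idx) hPC φ
            linarith
          calc ε / 4 * ‖φ - rsL (S : Set Idx) hPC φ‖
              ≤ ε / 4 * (2 * ‖φ‖) := mul_le_mul_of_nonneg_left c2 (by positivity)
            _ = ε / 2 * ‖φ‖ := by ring
      linarith
  have h1 : TopologicalSpace.IsSeparable (Set.range Ef) := (Set.countable_range Ef).isSeparable
  have h2 : TopologicalSpace.IsSeparable (closure (Submodule.span ℝ (Set.range Ef) : Set X0)) :=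
    h1.span.closure
  have h3 : closure (Submodule.span ℝ (Set.range Ef) : Set X0) = Set.univ :=
    Set.eq_univ_of_forall hdense
  rw [h3] at h2
  exact TopologicalSpace.isSeparable_univ_iff.1 h2

end Vale.Agent.P069h23
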