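import Vale.Agent.P069_h23.Space

namespace Vale.Agent.P069h23

/-- predecessor closed sets of nodes -/
def PC (S : Set Idx) : Prop := ∀ n a l, (n, a :: l) ∈ S → (n, l) ∈ S

open Classical in
/-- restriction to a set of nodes -/
noncomputable def rs (S : Set Idx) (φ : Idx →₀ ℝ) : Idx →₀ ℝ := φ.filter (fun s => s ∈ S)

lemma rs_apply_of_mem {S : Set Idx} {φ : Idx →₀ ℝ} {s : Idx} (h : s ∈ S) : rs S φ s = φ s := by
  classical
  simp [rs, h]

lemma rs_apply_of_notMem {S : Set Idx} {φ : Idx →₀ ℝ} {s : Idx} (h : s ∉ S) : rs S φ s = 0 := by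
  classical
  simp [rs, h]

lemma psum_congr_mem {S : Set Idx} (hS : PC S) (φ ψ : Idx →₀ ℝ) (h : ∀ s ∈ S, φ s = ψ s) (n : ℕ) :
    ∀ l : List ℕ, (n, l) ∈ S → psum φ n l = psum ψ n l := by
  intro l
  induction l with
  | nil => intro hm; simp [h _ hm]
  | cons a l ih => intro hm; simp [h _ hm, ih (hS n a l hm)]

lemma psum_eq_zero {S : Set Idx} (hS : PC S) (φ : Idx →₀ ℝ) (h : ∀ s ∈ S, φ s = 0) (n : ℕ)
    (l : List ℕ) (hl : (n, l) ∈ S) : psum φ n l = 0 := by
  have := psum_congr_mem hS φ 0 (by simpa using h) n l hl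
  rw [this]
  have h0 : ∀ l : List ℕ, psum (0 : Idx →₀ ℝ) n l = 0 := by
    intro l; induction l with
    | nil => simp
    | cons a l ih => simp [ih]
  exact h0 l

lemma psum_rs {S : Set Idx} (hS : PC S) (φ : Idx →₀ ℝ) (n : ℕ) :
    ∀ l : List ℕ, psum (rs S φ) n l = 0 ∨
      ∃ l' : List ℕ, l'.length ≤ l.length ∧ psum (rs S φ) n l = psum φ n l' := by
  intro l
  induction l with
  | nil =>
    by_cases h : (n, ([] : List ℕ)) ∈ S
    · right; exact ⟨[], le_rfl, by simp [rs_apply_of_mem h]⟩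
    · left; simp [rs_apply_of_notMem h]
  | cons a l ih =>
    by_cases h : (n, a :: l) ∈ S
    · right
      exact ⟨a :: l, le_rfl, psum_congr_mem hS _ _ (fun s hs => rs_apply_of_mem hs) n _ h⟩
    · rcases ih with h0 | ⟨l', h1, h2⟩
      · left; simp [rs_apply_of_notMem h, h0]
      · right; exact ⟨l', by simp; omega, by simp [rs_apply_of_notMem h, h2]⟩

lemma nrm_rs_le {S : Set Idx} (hS : PC S) (φ : Idx →₀ ℝ) : nrm (rs S φ) ≤ nrm φ := by
  have key : nrm (rs S φ) ^ 2 ≤ nrm φ ^ 2 := by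
    apply nrm_sq_le
    intro c A
    have hc : ∀ n, ∃ l' : List ℕ, l'.length ≤ n ∧
        (psum (rs S φ) n (c.1 n)) ^ 2 ≤ (psum φ n l') ^ 2 := by
      intro n
      rcases psum_rs hS φ n (c.1 n) with h | ⟨l', h1, h2⟩
      · exact ⟨[], by simp, by rw [h]; nlinarith [sq_nonneg (psum φ n [])]⟩
      · exact ⟨l', h1.trans (c.2 n), by rw [h2]⟩
    choose c' hc1 hc2 using hc
    refine le_trans (Finset.sum_le_sum ?_) (sum_le_nrm_sq ⟨c', hc1⟩ A φ)
    intro i _
    rcases i with s | n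
    · simp only [co_inl]
      by_cases h : s ∈ S
      · rw [rs_apply_of_mem h]
      · rw [rs_apply_of_notMem h]; nlinarith [sq_nonneg (φ s)]
    · exact hc2 n
  exact le_of_sq_le_sq key (nrm_nonneg _)

/-- `φ` lives on components `< m`. -/
def Low (m : ℕ) (φ : Idx →₀ ℝ) : Prop := ∀ s : Idx, m ≤ s.1 → φ s = 0
/-- `φ` lives on components `≥ m`. -/
def High (m : ℕ) (φ : Idx →₀ ℝ) : Prop := ∀ s : Idx, s.1 < m → φ s = 0

lemma psum_zero_of (φ : Idx →₀ ℝ) (n : ℕ) (h : ∀ l, φ (n, l) = 0) (l : List ℕ) :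
    psum φ n l = 0 := by
  induction l with
  | nil => simp [h]
  | cons a l ih => simp [h, ih]

lemma psum_ext (φ ψ : Idx →₀ ℝ) (n : ℕ) (h : ∀ l, φ (n, l) = ψ (n, l)) (l : List ℕ) :
    psum φ n l = psum ψ n l := by
  induction l with
  | nil => simp [h]
  | cons a l ih => simp [h, ih]

/-- component of a coordinate -/
def comp : Jdx → ℕ
  | Sum.inl s => s.1
  | Sum.inr n => n

lemma co_low {m : ℕ} {φ : Idx →₀ ℝ} (h : Low m φ) (c : Choice) (i : Jdx) (hi : m ≤ comp i) :
    co c φ i = 0 := by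
  rcases i with s | n
  · exact h s hi
  · exact psum_zero_of φ n (fun l => h (n, l) hi) _

lemma co_high {m : ℕ} {φ : Idx →₀ ℝ} (h : High m φ) (c : Choice) (i : Jdx) (hi : comp i < m) :
    co c φ i = 0 := by
  rcases i with s | n
  · exact h s hi
  · exact psum_zero_of φ n (fun l => h (n, l) hi) _

lemma nrm_add_sq_le {m : ℕ} {φ ψ : Idx →₀ ℝ} (hφ : Low m φ) (hψ : High m ψ) :
    nrm (φ + ψ) ^ 2 ≤ nrm φ ^ 2 + nrm ψ ^ 2 := by
  apply nrm_sq_le
  intro c A
  refine le_trans (le_of_eq ?_) (add_le_add (sum_le_nrm_sq c A φ) (sum_le_nrm_sq c A ψ))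
  rw [← Finset.sum_add_distrib]
  refine Finset.sum_congr rfl (fun i _ => ?_)
  rw [co_add]
  rcases lt_or_ge (comp i) m with h | h
  · rw [co_high hψ c i h]; ring
  · rw [co_low hφ c i h]; ring

lemma nrm_add_sq_ge {m : ℕ} {φ ψ : Idx →₀ ℝ} (hφ : Low m φ) (hψ : High m ψ) :
    nrm φ ^ 2 + nrm ψ ^ 2 ≤ nrm (φ + ψ) ^ 2 := by
  classical
  have h1 : nrm φ ^ 2 ≤ nrm (φ + ψ) ^ 2 - nrm ψ ^ 2 := by
    apply nrm_sq_le
    intro c A
    have h2 : nrm ψ ^ 2 ≤ nrm (φ + ψ) ^ 2 - ∑ i ∈ A, (co c φ i) ^ 2 := by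
      apply nrm_sq_le
      intro c' A'
      set d : Choice := ⟨fun n => if n < m then c.1 n else c'.1 n, fun n => by
        dsimp only
        split_ifs
        · exact c.2 n
        · exact c'.2 n⟩ with hd
      have h3 := sum_le_nrm_sq d (A.filter (fun i => comp i < m) ∪ A'.filter (fun i => m ≤ comp i))
        (φ + ψ)
      rw [Finset.sum_union] at h3
      swap
      · rw [Finset.disjoint_left]
        intro i hi hi'
        simp only [Finset.mem_filter] at hi hi'
        omega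
      have h4 : ∑ i ∈ A, (co c φ i) ^ 2 =
          ∑ i ∈ A.filter (fun i => comp i < m), (co d (φ + ψ) i) ^ 2 := by
        rw [Finset.sum_filter]
        refine Finset.sum_congr rfl (fun i _ => ?_)
        split_ifs with h
        · rw [co_add, co_high hψ d i h, add_zero]
          rcases i with s | n
          · rfl
          · have h' : n < m := h
            simp [hd, h']
        · rw [co_low hφ c i (not_lt.1 h)]; ring
      have h5 : ∑ i ∈ A', (co c' ψ i) ^ 2 =
          ∑ i ∈ A'.filter (fun i => m ≤ comp i), (co d (φ + ψ) i) ^ 2 := by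
        rw [Finset.sum_filter]
        refine Finset.sum_congr rfl (fun i _ => ?_)
        split_ifs with h
        · rw [co_add, co_low hφ d i h, zero_add]
          rcases i with s | n
          · rfl
          · have h' : ¬ n < m := not_lt.2 h
            simp [hd, h']
        · rw [co_high hψ c' i (not_le.1 h)]; ring
      rw [h4, h5]
      linarith
    linarith
  linarith

/-- restriction to the components `< m`. -/
noncomputable def lowPart (m : ℕ) (φ : Idx →₀ ℝ) : Idx →₀ ℝ := rs {s | s.1 < m} φ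

lemma low_lowPart (m : ℕ) (φ : Idx →₀ ℝ) : Low m (lowPart m φ) := by
  intro s hs
  exact rs_apply_of_notMem (by simpa using hs)

lemma high_sub_lowPart (m : ℕ) (φ : Idx →₀ ℝ) : High m (φ - lowPart m φ) := by
  intro s hs
  rw [Finsupp.sub_apply, lowPart, rs_apply_of_mem (by simpa using hs), sub_self]

lemma nrm_sq_decomp (m : ℕ) (φ : Idx →₀ ℝ) :
    nrm (lowPart m φ) ^ 2 + nrm (φ - lowPart m φ) ^ 2 ≤ nrm φ ^ 2 := by
  have := nrm_add_sq_ge (low_lowPart m φ) (high_sub_lowPart m φ)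
  rwa [add_sub_cancel] at this

lemma exists_low (φ : Idx →₀ ℝ) : ∃ m, Low m φ := by
  refine ⟨(φ.support.sup (fun s => s.1)) + 1, fun s hs => ?_⟩
  by_contra h
  have h1 : s ∈ φ.support := Finsupp.mem_support_iff.2 h
  have h2 : s.1 ≤ φ.support.sup (fun s => s.1) := Finset.le_sup (f := fun s : Idx => s.1) h1
  omega

end Vale.Agent.P069h23
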