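import Vale.Agent.P069_h23.Basic

namespace Vale.Agent.P069h23

/-- the space of the counterexample -/
abbrev X0 : Type := StrongDual ℝ Y0

/-- unit vectors -/
noncomputable def dlt (s : Idx) : Y0 := toF.symm (Finsupp.single s 1)

lemma toF_dlt (s : Idx) : toF (dlt s) = Finsupp.single s 1 := by simp [dlt]

lemma norm_dlt_le (s : Idx) : ‖dlt s‖ ≤ 2 := by
  rw [norm_def, toF_dlt]
  exact nrm_le (fun p => L_single_le p s)

lemma expand (φ : Y0) : φ = ∑ s ∈ (toF φ).support, (toF φ s) • dlt s := by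
  apply toF.injective
  rw [map_sum]
  conv_lhs => rw [← Finsupp.sum_single (toF φ)]
  rw [Finsupp.sum]
  refine Finset.sum_congr rfl (fun s _ => ?_)
  rw [map_smul, toF_dlt]; simp

lemma apply_expand (f : X0) (φ : Y0) :
    f φ = ∑ s ∈ (toF φ).support, (toF φ s) * f (dlt s) := by
  conv_lhs => rw [expand φ]
  rw [map_sum]
  refine Finset.sum_congr rfl (fun s _ => ?_)
  rw [map_smul, smul_eq_mul]

/-- coordinate functionals -/
noncomputable def Ef (s : Idx) : X0 :=
  LinearMap.mkContinuous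
    { toFun := fun φ => toF φ s
      map_add' := fun φ ψ => by simp
      map_smul' := fun r φ => by simp } 1
    (fun φ => by
      rw [one_mul, norm_def]
      exact abs_apply_le_nrm _ _)

@[simp] lemma Ef_apply (s : Idx) (φ : Y0) : Ef s φ = toF φ s := rfl

lemma abs_psum_le_nrm (φ : Idx →₀ ℝ) (n : ℕ) (l : List ℕ) (h : l.length ≤ n) :
    |psum φ n l| ≤ nrm φ := by
  classical
  let c : Choice := ⟨fun k => if k = n then l else [], fun k => by
    dsimp only
    split_ifs with hk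
    · rw [hk]; exact h
    · simp⟩
  have h1 := sum_le_nrm_sq c {Sum.inr n} φ
  rw [Finset.sum_singleton] at h1
  simp only [co_inr, c, if_true] at h1
  exact abs_le_of_sq_le_sq h1 (nrm_nonneg _)

/-- path functionals -/
noncomputable def Pf (n : ℕ) (l : List ℕ) (h : l.length ≤ n) : X0 :=
  LinearMap.mkContinuous
    { toFun := fun φ => psum (toF φ) n l
      map_add' := fun φ ψ => by simp [psum_add]
      map_smul' := fun r φ => by simp [psum_smul] } 1
    (fun φ => by
      rw [one_mul, norm_def]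
      exact abs_psum_le_nrm _ _ _ h)

@[simp] lemma Pf_apply (n : ℕ) (l : List ℕ) (h : l.length ≤ n) (φ : Y0) :
    Pf n l h φ = psum (toF φ) n l := rfl

lemma norm_Pf_le (n : ℕ) (l : List ℕ) (h : l.length ≤ n) : ‖Pf n l h‖ ≤ 1 :=
  LinearMap.mkContinuous_norm_le _ zero_le_one _

lemma sum_sq_le (A : Finset Idx) (φ : Idx →₀ ℝ) : ∑ s ∈ A, (φ s) ^ 2 ≤ nrm φ ^ 2 := by
  have h := sum_le_nrm_sq default (A.map ⟨Sum.inl, Sum.inl_injective⟩) φ
  rwa [Finset.sum_map] at h

lemma norm_sum_Ef_le (A : Finset Idx) (c : Idx → ℝ) :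
    ‖∑ s ∈ A, c s • Ef s‖ ≤ Real.sqrt (∑ s ∈ A, (c s) ^ 2) := by
  apply ContinuousLinearMap.opNorm_le_bound _ (Real.sqrt_nonneg _)
  intro φ
  have h1 : (∑ s ∈ A, c s • Ef s) φ = ∑ s ∈ A, c s * toF φ s := by
    rw [_root_.sum_apply]
    refine Finset.sum_congr rfl (fun s _ => ?_)
    simp
  rw [h1, Real.norm_eq_abs]
  have h2 := Finset.sum_mul_sq_le_sq_mul_sq A c (fun s => toF φ s)
  have h3 := sum_sq_le A (toF φ)
  apply abs_le_of_sq_le_sq _ (by positivity)
  rw [mul_pow, Real.sq_sqrt (Finset.sum_nonneg (fun _ _ => sq_nonneg _)), norm_def]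
  refine h2.trans (mul_le_mul_of_nonneg_left h3 (Finset.sum_nonneg (fun _ _ => sq_nonneg _)))

/-- squares along a path -/
def wsum (φ : Idx →₀ ℝ) (n : ℕ) : List ℕ → ℝ
  | [] => φ (n, []) ^ 2
  | (a :: l) => φ (n, a :: l) ^ 2 + wsum φ n l

lemma wsum_nonneg (φ : Idx →₀ ℝ) (n : ℕ) (l : List ℕ) : 0 ≤ wsum φ n l := by
  induction l with
  | nil => simp only [wsum]; positivity
  | cons a l ih => simp only [wsum]; positivity

lemma psum_sq_le (φ : Idx →₀ ℝ) (n : ℕ) (l : List ℕ) :
    (psum φ n l) ^ 2 ≤ (l.length + 1) * wsum φ n l := by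
  induction l with
  | nil => simp [wsum]
  | cons a l ih =>
    simp only [psum_cons, wsum, List.length_cons, Nat.cast_add, Nat.cast_one]
    set x := φ (n, a :: l)
    set p := psum φ n l
    set W := wsum φ n l
    set k : ℝ := (l.length : ℝ) with hk
    have hk0 : 0 ≤ k := by positivity
    have h1 : 2 * x * p ≤ (k + 1) * x ^ 2 + W := by
      have h2 : 0 ≤ ((k + 1) * x - p) ^ 2 := sq_nonneg _
      have h3 : (k + 1) * (2 * x * p) ≤ (k + 1) * ((k + 1) * x ^ 2 + W) := by nlinarith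
      exact le_of_mul_le_mul_left h3 (by linarith)
    nlinarith

lemma wsum_le (φ : Idx →₀ ℝ) (n : ℕ) (l : List ℕ) :
    wsum φ n l ≤ ∑ s ∈ φ.support.filter (fun s => s.1 = n ∧ s.2.length ≤ l.length), φ s ^ 2 := by
  induction l with
  | nil =>
    simp only [wsum]
    by_cases h : φ (n, []) = 0
    · rw [h]
      refine le_trans (by norm_num) (Finset.sum_nonneg (fun _ _ => sq_nonneg _))
    · have hm : (n, ([] : List ℕ)) ∈
          φ.support.filter (fun s => s.1 = n ∧ s.2.length ≤ ([] : List ℕ).length) := by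
        simp [h]
      exact Finset.single_le_sum (f := fun s => φ s ^ 2) (fun _ _ => sq_nonneg _) hm
  | cons a l ih =>
    simp only [wsum]
    set B := φ.support.filter (fun s => s.1 = n ∧ s.2.length ≤ l.length) with hB
    by_cases h : φ (n, a :: l) = 0
    · rw [h]
      have : (0:ℝ) ^ 2 + wsum φ n l = wsum φ n l := by ring
      rw [this]
      refine ih.trans (Finset.sum_le_sum_of_subset_of_nonneg ?_ (fun _ _ _ => sq_nonneg _))
      intro s hs
      simp only [hB, Finset.mem_filter] at hs ⊢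
      exact ⟨hs.1, hs.2.1, by simp; omega⟩
    · have hm : (n, a :: l) ∉ B := by simp [hB]
      have hs : insert (n, a :: l) B ⊆
          φ.support.filter (fun s => s.1 = n ∧ s.2.length ≤ (a :: l).length) := by
        intro s hs
        rw [Finset.mem_insert] at hs
        rcases hs with rfl | hs
        · simp [h]
        · simp only [hB, Finset.mem_filter] at hs ⊢
          exact ⟨hs.1, hs.2.1, by simp; omega⟩
      refine le_trans ?_ (Finset.sum_le_sum_of_subset_of_nonneg hs (fun _ _ _ => sq_nonneg _))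
      rw [Finset.sum_insert hm]
      linarith

lemma nrm_sq_le_of_low {m : ℕ} {φ : Idx →₀ ℝ} (h : Low m φ) :
    nrm φ ^ 2 ≤ (1 + m) * ∑ s ∈ φ.support, φ s ^ 2 := by
  classical
  apply nrm_sq_le
  intro c A
  have hsplit : ∑ i ∈ A, (co c φ i) ^ 2 = ∑ s ∈ A.toLeft, (φ s) ^ 2 +
      ∑ n ∈ A.toRight, (psum φ n (c.1 n)) ^ 2 := by
    conv_lhs => rw [← Finset.toLeft_disjSum_toRight (u := A)]
    rw [Finset.sum_disjSum]
    rfl
  rw [hsplit]
  have h1 : ∑ s ∈ A.toLeft, (φ s) ^ 2 ≤ ∑ s ∈ φ.support, φ s ^ 2 := by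
    rw [← Finset.sum_filter_add_sum_filter_not A.toLeft (fun s => s ∈ φ.support)]
    have : ∑ s ∈ A.toLeft.filter (fun s => ¬ s ∈ φ.support), (φ s) ^ 2 = 0 := by
      apply Finset.sum_eq_zero
      intro s hs
      simp only [Finset.mem_filter, Finsupp.mem_support_iff, not_not] at hs
      rw [hs.2]; norm_num
    rw [this, add_zero]
    apply Finset.sum_le_sum_of_subset_of_nonneg
    · intro s hs
      exact (Finset.mem_filter.1 hs).2
    · intros; positivity
  have h2 : ∀ n, (psum φ n (c.1 n)) ^ 2 ≤ m * ∑ s ∈ φ.support.filter (fun s => s.1 = n), φ s ^ 2 := by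
    intro n
    rcases lt_or_ge n m with hn | hn
    · refine (psum_sq_le φ n (c.1 n)).trans ?_
      apply mul_le_mul
      · have := c.2 n
        have h3 : (c.1 n).length + 1 ≤ m := by omega
        exact_mod_cast h3
      · refine (wsum_le φ n (c.1 n)).trans ?_
        apply Finset.sum_le_sum_of_subset_of_nonneg
        · intro s hs
          simp only [Finset.mem_filter] at hs ⊢
          exact ⟨hs.1, hs.2.1⟩
        · intros; positivity
      · exact wsum_nonneg _ _ _
      · positivity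
    · rw [psum_zero_of φ n (fun l => h (n, l) hn)]
      have : 0 ≤ (m:ℝ) * ∑ s ∈ φ.support.filter (fun s => s.1 = n), φ s ^ 2 :=
        mul_nonneg (by positivity) (Finset.sum_nonneg (fun _ _ => sq_nonneg _))
      simpa using this
  have h3 : ∑ n ∈ A.toRight, (psum φ n (c.1 n)) ^ 2 ≤ m * ∑ s ∈ φ.support, φ s ^ 2 := by
    refine (Finset.sum_le_sum (fun n _ => h2 n)).trans ?_
    rw [← Finset.mul_sum]
    apply mul_le_mul_of_nonneg_left _ (by positivity)
    apply Finset.sum_fiberwise_le_sum_of_sum_fiber_nonneg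
    intro n _
    exact Finset.sum_nonneg (fun _ _ => sq_nonneg _)
  linarith

lemma sum_sq_apply_le {m : ℕ} (f : X0) (A : Finset Idx) (hA : ∀ s ∈ A, s.1 < m) :
    ∑ s ∈ A, (f (dlt s)) ^ 2 ≤ (1 + m) * ‖f‖ ^ 2 := by
  classical
  set T := ∑ s ∈ A, (f (dlt s)) ^ 2 with hT
  set φ : Y0 := ∑ s ∈ A, (f (dlt s)) • dlt s with hφ
  have h1 : f φ = T := by
    rw [hφ, map_sum, hT]
    refine Finset.sum_congr rfl (fun s _ => ?_)
    rw [map_smul, smul_eq_mul, sq]
  have hval : ∀ s, toF φ s = if s ∈ A then f (dlt s) else 0 := by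
    intro s
    rw [hφ, map_sum, Finsupp.finsetSum_apply]
    have : ∀ x ∈ A, (toF ((f (dlt x)) • dlt x)) s = if x = s then f (dlt s) else 0 := by
      intro x _
      rw [map_smul, toF_dlt, Finsupp.smul_apply, Finsupp.single_apply]
      split_ifs with h
      · subst h; simp
      · simp
    rw [Finset.sum_congr rfl this]
    rw [Finset.sum_ite_eq' A s]
  have hlow : Low m (toF φ) := by
    intro s hs
    rw [hval, if_neg]
    intro hsA
    have := hA s hsA
    omega
  have h2 := nrm_sq_le_of_low hlow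
  have h3 : ∑ s ∈ (toF φ).support, (toF φ s) ^ 2 ≤ T := by
    rw [hT]
    have h4 : (toF φ).support ⊆ A := by
      intro s hs
      rw [Finsupp.mem_support_iff, hval] at hs
      by_contra h
      exact hs (if_neg h)
    calc ∑ s ∈ (toF φ).support, (toF φ s) ^ 2 ≤ ∑ s ∈ A, (toF φ s) ^ 2 :=
          Finset.sum_le_sum_of_subset_of_nonneg h4 (fun _ _ _ => sq_nonneg _)
      _ = ∑ s ∈ A, (f (dlt s)) ^ 2 := by
          refine Finset.sum_congr rfl (fun s hs => ?_)
          rw [hval, if_pos hs]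
  have h5 : T ≤ ‖f‖ * ‖φ‖ := by
    rw [← h1]
    exact (le_abs_self _).trans (f.le_opNorm φ)
  have hT0 : 0 ≤ T := Finset.sum_nonneg (fun _ _ => sq_nonneg _)
  have h6 : ‖φ‖ ^ 2 ≤ (1 + m) * T := by
    rw [norm_def]
    refine h2.trans (mul_le_mul_of_nonneg_left h3 (by positivity))
  have h7 : T ^ 2 ≤ ‖f‖ ^ 2 * ((1 + m) * T) := by
    calc T ^ 2 ≤ (‖f‖ * ‖φ‖) ^ 2 := pow_le_pow_left₀ hT0 h5 2
      _ = ‖f‖ ^ 2 * ‖φ‖ ^ 2 := by ring
      _ ≤ _ := mul_le_mul_of_nonneg_left h6 (by positivity)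
  rcases hT0.eq_or_lt with h0 | h0
  · rw [← h0]; positivity
  · have : T * T ≤ ((1 + m) * ‖f‖ ^ 2) * T := by nlinarith
    exact le_of_mul_le_mul_right this h0

end Vale.Agent.P069h23
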