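import Vale.Agent.P069_h23.Amuc

namespace Vale.Agent.P069h23

open Filter Topology

/-- a weakly null sequence gets close to every closed subspace of finite codimension -/
lemma exists_near {X : Type*} [NormedAddCommGroup X] [NormedSpace ℝ X] (F : Submodule ℝ X)
    (hF : IsCof F) (e : ℕ → X) (he : ∀ G : StrongDual ℝ X, Tendsto (fun j => G (e j)) atTop (𝓝 0))
    {κ : ℝ} (hκ : 0 < κ) : ∃ j, ∃ y ∈ F, ‖e j - y‖ < κ := by
  obtain ⟨hcl, hfd⟩ := hF
  have := hcl
  have := hfd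
  let b := Module.finBasis ℝ (X ⧸ F)
  let Φ : (X ⧸ F) ≃L[ℝ] (Fin (Module.finrank ℝ (X ⧸ F)) → ℝ) := b.equivFunL
  have h1 : Tendsto (fun j => Φ (F.mkQL (e j))) atTop (𝓝 0) := by
    rw [tendsto_pi_nhds]
    intro i
    exact he (((ContinuousLinearMap.proj i :
      (Fin (Module.finrank ℝ (X ⧸ F)) → ℝ) →L[ℝ] ℝ).comp
        (Φ : (X ⧸ F) →L[ℝ] (Fin (Module.finrank ℝ (X ⧸ F)) → ℝ))).comp F.mkQL)
  have h2 : Tendsto (fun j => F.mkQL (e j)) atTop (𝓝 0) := by
    have h3 := (Φ.symm.continuous.tendsto 0).comp h1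
    rw [map_zero] at h3
    refine h3.congr (fun j => ?_)
    simp
  have h4 : ∀ᶠ j in atTop, ‖F.mkQL (e j)‖ < κ := by
    have := h2.norm
    rw [norm_zero] at this
    exact this.eventually (gt_mem_nhds hκ)
  obtain ⟨j, hj⟩ := h4.exists
  obtain ⟨m, hm1, hm2⟩ := Submodule.Quotient.norm_mk_lt (F.mkQL (e j)) (sub_pos.2 hj)
  refine ⟨j, e j - m, ?_, ?_⟩
  · rw [← Submodule.Quotient.mk_eq_zero, Submodule.Quotient.mk_sub, hm1]
    simp
  · rw [sub_sub_cancel]; linarith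

lemma weakly_null (n : ℕ) (l : List ℕ) (G : StrongDual ℝ X0) :
    Tendsto (fun j : ℕ => G (Ef (n, j :: l))) atTop (𝓝 0) := by
  have hinj : Function.Injective (fun j : ℕ => ((n, j :: l) : Idx)) := by
    intro i j h
    simpa using h
  have hs : Summable (fun j : ℕ => (G (Ef (n, j :: l))) ^ 2) := by
    apply summable_of_sum_le (fun _ => sq_nonneg _) (c := ‖G‖ ^ 2)
    intro u
    have h := sum_sq_second_le G (u.map ⟨_, hinj⟩)
    rwa [Finset.sum_map] at h
  have h1 := hs.tendsto_atTop_zero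
  have h2 := (Real.continuous_sqrt.tendsto 0).comp h1
  rw [Real.sqrt_zero] at h2
  rw [tendsto_zero_iff_abs_tendsto_zero]
  refine h2.congr (fun j => ?_)
  simp [Real.sqrt_sq_eq_abs]

lemma half_le_norm_Ef (s : Idx) : 1 / 2 ≤ ‖Ef s‖ := by
  have h1 : Ef s (dlt s) = 1 := by rw [Ef_apply, toF_dlt]; simp
  have h2 := (Ef s).le_opNorm (dlt s)
  rw [h1, norm_one] at h2
  have h3 := norm_dlt_le s
  nlinarith [norm_nonneg (Ef s)]

lemma Pf_cons (n : ℕ) (a : ℕ) (l : List ℕ) (h : (a :: l).length ≤ n) (h' : l.length ≤ n) :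
    Pf n (a :: l) h = Pf n l h' + Ef (n, a :: l) := by
  ext φ
  rw [_root_.add_apply, Pf_apply, Pf_apply, Ef_apply, psum_cons]; ring

lemma Pf_nil (n : ℕ) (h : ([] : List ℕ).length ≤ n) : Pf n [] h = Ef (n, []) := by
  ext φ
  rw [Pf_apply, Ef_apply, psum_nil]

lemma extract {X : Type*} [NormedAddCommGroup X] [NormedSpace ℝ X] (N : Seminorm ℝ X) (t : ℝ)
    (h : 0 < aucModulus N t) : ∃ δ : ℝ, 0 < δ ∧ ∀ x : X, N x = 1 →
      ∃ F : Submodule ℝ X, IsCof F ∧ ∀ y ∈ F, N y = 1 → 1 + δ ≤ N (x + t • y) := by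
  obtain ⟨δ, h1, h2⟩ := EReal.lt_iff_exists_real_btwn.1 h
  refine ⟨δ, by exact_mod_cast h1, ?_⟩
  intro x hx
  have h3 := lt_of_lt_of_le h2 (iInf_le _ (⟨x, hx⟩ : {x : X // N x = 1}))
  obtain ⟨F, hF⟩ := lt_iSup_iff.1 h3
  refine ⟨F.1, F.2, ?_⟩
  intro y hy hy1
  have h4 := lt_of_lt_of_le hF (iInf_le _ (⟨y, hy, hy1⟩ : {y : X // y ∈ F.1 ∧ N y = 1}))
  have h5 : δ < N (x + t • y) - 1 := by exact_mod_cast h4
  linarith

lemma convex_step {X : Type*} [NormedAddCommGroup X] [NormedSpace ℝ X] (N : Seminorm ℝ X)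
    {t0 δ ρ : ℝ} (ht0 : 0 < t0) (hδ : 0 < δ) (hρ : 0 < ρ) (x y : X) (hx : N x = ρ)
    (hy : t0 * ρ ≤ N y) (h : 1 + δ ≤ N (ρ⁻¹ • x + t0 • ((N y)⁻¹ • y))) :
    ρ * (1 + δ) ≤ N (x + y) := by
  have hNy : 0 < N y := lt_of_lt_of_le (by positivity) hy
  set θ := t0 * ρ / N y with hθ
  have hθ0 : 0 < θ := by positivity
  have hθ1 : θ ≤ 1 := by rw [hθ, div_le_one hNy]; exact hy
  have e1 : ρ⁻¹ • x + t0 • ((N y)⁻¹ • y) = (1 - θ) • (ρ⁻¹ • x) + θ • (ρ⁻¹ • (x + y)) := by
    have e2 : t0 • ((N y)⁻¹ • y) = θ • (ρ⁻¹ • y) := by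
      rw [smul_smul, smul_smul]
      congr 1
      rw [hθ]; field_simp
    rw [e2, smul_add, smul_add, sub_smul, one_smul]
    abel
  have h1 : N (ρ⁻¹ • x + t0 • ((N y)⁻¹ • y)) ≤ (1 - θ) + θ * (ρ⁻¹ * N (x + y)) := by
    rw [e1]
    refine (map_add_le_add N _ _).trans ?_
    rw [map_smul_eq_mul, map_smul_eq_mul, map_smul_eq_mul, map_smul_eq_mul, Real.norm_eq_abs,
      Real.norm_eq_abs, Real.norm_eq_abs, abs_of_nonneg (by linarith : 0 ≤ 1 - θ),
      abs_of_pos (inv_pos.2 hρ), abs_of_pos hθ0, hx, inv_mul_cancel₀ hρ.ne', mul_one]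
  have h2 : δ + θ ≤ θ * (ρ⁻¹ * N (x + y)) := by linarith
  have h3 : θ * (1 + δ) ≤ θ * (ρ⁻¹ * N (x + y)) := by nlinarith
  have h4 : 1 + δ ≤ ρ⁻¹ * N (x + y) := le_of_mul_le_mul_left h3 hθ0
  rwa [le_inv_mul_iff₀ hρ] at h4

theorem X0_not_auc : ¬ AUCRenormable X0 := by
  rintro ⟨N, ⟨a, b, ha, hb, hN⟩, hauc⟩
  obtain ⟨δ', hδ', hδ1'⟩ := extract N (a / (4 * b)) (hauc _ (by positivity))
  set δ := min δ' 1 with hδdef
  have hδ : 0 < δ := lt_min hδ' one_pos
  have hδ1 : δ ≤ 1 := min_le_right _ _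
  have hsub : ∀ x y : X0, N x - N y ≤ N (x - y) := by
    intro x y
    have := map_add_le_add N (x - y) y
    rw [sub_add_cancel] at this
    linarith
  have step : ∀ n k, k ≤ n → ∃ l : List ℕ, ∃ h : l.length ≤ n, l.length = k ∧
      a / 2 * (1 + δ / 2) ^ k ≤ N (Pf n l h) := by
    intro n k
    induction k with
    | zero =>
      intro _
      refine ⟨[], by simp, rfl, ?_⟩
      rw [Pf_nil, pow_zero, mul_one]
      have h1 := (hN (Ef (n, []))).1
      have h2 := half_le_norm_Ef (n, [])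
      nlinarith
    | succ k ih =>
      intro hk
      obtain ⟨l, h, hlen, hl⟩ := ih (by omega)
      set x := Pf n l h with hx
      set ρ := N x with hρ
      have hpow : 1 ≤ (1 + δ / 2) ^ k := one_le_pow₀ (by linarith)
      have hρ1 : a / 2 ≤ ρ := by nlinarith
      have hρ0 : 0 < ρ := by linarith
      have hρb : ρ ≤ b := by
        have h1 := (hN x).2
        have h2 := norm_Pf_le n l h
        nlinarith
      have hu : N (ρ⁻¹ • x) = 1 := by
        rw [map_smul_eq_mul, Real.norm_eq_abs, abs_of_pos (inv_pos.2 hρ0), ← hρ,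
          inv_mul_cancel₀ hρ0.ne']
      obtain ⟨F, hF, hF'⟩ := hδ1' _ hu
      obtain ⟨j, y, hyF, hy⟩ := exists_near F hF (fun j => Ef (n, j :: l)) (weakly_null n l)
        (κ := δ * a / (8 * b)) (by positivity)
      have hNe : N (Ef (n, j :: l) - y) ≤ δ * a / 8 := by
        refine (hN _).2.trans ?_
        have : b * ‖Ef (n, j :: l) - y‖ ≤ b * (δ * a / (8 * b)) :=
          mul_le_mul_of_nonneg_left hy.le hb.le
        refine this.trans (le_of_eq ?_)
        field_simp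
      have hNE : a / 2 ≤ N (Ef (n, j :: l)) := by
        have h1 := (hN (Ef (n, j :: l))).1
        have h2 := half_le_norm_Ef (n, j :: l)
        nlinarith
      have hNy : a / 4 ≤ N y := by
        have := hsub (Ef (n, j :: l)) y
        nlinarith
      have hNy0 : 0 < N y := by linarith
      have hNyt : a / (4 * b) * ρ ≤ N y := by
        have : a / (4 * b) * ρ ≤ a / (4 * b) * b := mul_le_mul_of_nonneg_left hρb (by positivity)
        have h2 : a / (4 * b) * b = a / 4 := by field_simp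
        linarith
      have hv : N ((N y)⁻¹ • y) = 1 := by
        rw [map_smul_eq_mul, Real.norm_eq_abs, abs_of_pos (inv_pos.2 hNy0),
          inv_mul_cancel₀ hNy0.ne']
      have h1 := hF' _ (F.smul_mem _ hyF) hv
      have h2 : 1 + δ ≤ N (ρ⁻¹ • x + (a / (4 * b)) • ((N y)⁻¹ • y)) :=
        le_trans (by linarith [min_le_left δ' (1:ℝ)]) h1
      have h3 := convex_step N (by positivity) hδ hρ0 x y hρ.symm hNyt h2
      have hlen' : (j :: l).length ≤ n := by simp; omega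
      refine ⟨j :: l, hlen', by simp [hlen], ?_⟩
      rw [Pf_cons n j l hlen' h, ← hx]
      have h4 : N (x + y) - N (Ef (n, j :: l) - y) ≤ N (x + Ef (n, j :: l)) := by
        have h5 := hsub (x + y) (x + y - (x + Ef (n, j :: l)))
        have e1 : x + y - (x + y - (x + Ef (n, j :: l))) = x + Ef (n, j :: l) := by abel
        have e2 : x + y - (x + Ef (n, j :: l)) = -(Ef (n, j :: l) - y) := by abel
        rw [e1, e2, map_neg_eq_map] at h5
        exact h5
      have h6 : ρ * (1 + δ / 2) ≤ N (x + Ef (n, j :: l)) := by nlinarith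
      rw [pow_succ, ← mul_assoc]
      refine le_trans (mul_le_mul_of_nonneg_right hl (by positivity)) h6
  obtain ⟨n, hn⟩ := pow_unbounded_of_one_lt (2 * b / a) (by linarith : 1 < 1 + δ / 2)
  obtain ⟨l, h, -, hl⟩ := step n n le_rfl
  have h1 := (hN (Pf n l h)).2
  have h2 := norm_Pf_le n l h
  rw [div_lt_iff₀ ha] at hn
  nlinarith

theorem X0_infinite : ¬ FiniteDimensional ℝ X0 := by
  intro hfd
  apply X0_not_auc
  refine ⟨normSeminorm ℝ X0, ⟨1, 1, one_pos, one_pos, fun x => by simp⟩, ?_⟩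
  intro t _
  have hcof : IsCof (⊥ : Submodule ℝ X0) := by
    constructor
    · exact isClosed_singleton
    · infer_instance
  have : (⊤ : EReal) ≤ aucModulus (normSeminorm ℝ X0) t := by
    unfold aucModulus
    refine le_iInf (fun x => ?_)
    refine le_trans ?_ (le_iSup _ ⟨⊥, hcof⟩)
    refine le_iInf (fun y => ?_)
    exfalso
    have h1 : y.1 = 0 := (Submodule.mem_bot ℝ).1 y.2.1
    have h2 := y.2.2
    rw [h1] at h2
    simp at h2
  exact lt_of_lt_of_le (by simp) this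

end Vale.Agent.P069h23
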