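import Vale.Agent.P069_h23.Dual

namespace Vale.Agent.P069h23

lemma norm_add_sq_le' {m : ℕ} {φ ψ : Y0} (hφ : Low m (toF φ)) (hψ : High m (toF ψ)) :
    ‖φ + ψ‖ ^ 2 ≤ ‖φ‖ ^ 2 + ‖ψ‖ ^ 2 := by
  rw [norm_def, norm_def, norm_def, map_add]
  exact nrm_add_sq_le hφ hψ

lemma high_mono {m m' : ℕ} (h : m ≤ m') {φ : Idx →₀ ℝ} (hφ : High m' φ) : High m φ :=
  fun s hs => hφ s (by omega)

lemma high_add {m : ℕ} {φ ψ : Idx →₀ ℝ} (hφ : High m φ) (hψ : High m ψ) : High m (φ + ψ) := by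
  intro s hs; simp [hφ s hs, hψ s hs]

/-- functionals are small far out -/
lemma tail_small (f : X0) {ε : ℝ} (hε : 0 < ε) :
    ∃ m, ∀ φ : Y0, High m (toF φ) → |f φ| ≤ ε * ‖φ‖ := by
  by_contra hcon
  push Not at hcon
  -- normalised blocks
  have hblock : ∀ m, ∃ φ : Y0, High m (toF φ) ∧ ‖φ‖ ≤ 1 ∧ ε ≤ f φ := by
    intro m
    obtain ⟨φ, h1, h2⟩ := hcon m
    have hφ0 : ‖φ‖ ≠ 0 := by
      intro h0
      have : φ = 0 := norm_eq_zero.1 h0
      rw [this] at h2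
      simp at h2
    have hpos : 0 < ‖φ‖ := lt_of_le_of_ne (norm_nonneg _) (Ne.symm hφ0)
    rcases le_total 0 (f φ) with h3 | h3
    · refine ⟨‖φ‖⁻¹ • φ, ?_, ?_, ?_⟩
      · intro s hs
        rw [map_smul, Finsupp.smul_apply, h1 s hs, smul_zero]
      · rw [norm_smul, norm_inv, norm_norm, inv_mul_cancel₀ hφ0]
      · rw [map_smul, smul_eq_mul, le_inv_mul_iff₀ hpos]
        rw [abs_of_nonneg h3] at h2
        linarith
    · refine ⟨-(‖φ‖⁻¹ • φ), ?_, ?_, ?_⟩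
      · intro s hs
        rw [map_neg, map_smul, Finsupp.neg_apply, Finsupp.smul_apply, h1 s hs, smul_zero, neg_zero]
      · rw [norm_neg, norm_smul, norm_inv, norm_norm, inv_mul_cancel₀ hφ0]
      · rw [map_neg, map_smul, smul_eq_mul, ← mul_neg, le_inv_mul_iff₀ hpos]
        rw [abs_of_nonpos h3] at h2
        linarith
  have hsum : ∀ K : ℕ, ∀ m, ∃ φ : Y0, High m (toF φ) ∧ ‖φ‖ ^ 2 ≤ K ∧ K * ε ≤ f φ := by
    intro K
    induction K with
    | zero => intro m; exact ⟨0, by intro s _; simp, by simp, by simp⟩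
    | succ K ih =>
      intro m
      obtain ⟨φ, h1, h2, h3⟩ := hblock m
      obtain ⟨m', hm'⟩ := exists_low (toF φ)
      obtain ⟨ψ, h4, h5, h6⟩ := ih (max m m')
      have hlow : Low (max m m') (toF φ) := fun s hs => hm' s (le_trans (le_max_right _ _) hs)
      refine ⟨φ + ψ, ?_, ?_, ?_⟩
      · rw [map_add]
        exact high_add h1 (high_mono (le_max_left _ _) h4)
      · refine (norm_add_sq_le' hlow h4).trans ?_
        push_cast
        nlinarith [norm_nonneg φ]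
      · rw [map_add]; push_cast; linarith
  obtain ⟨K, hK⟩ := exists_nat_gt (‖f‖ ^ 2 / ε ^ 2)
  obtain ⟨φ, -, h2, h3⟩ := hsum K 0
  have hKpos : (0:ℝ) < K := lt_of_le_of_lt (by positivity) hK
  have h4 : (K * ε) ^ 2 ≤ ‖f‖ ^ 2 * K := by
    calc (K * ε) ^ 2 ≤ (f φ) ^ 2 := pow_le_pow_left₀ (by positivity) h3 2
      _ ≤ (‖f‖ * ‖φ‖) ^ 2 := by
          rw [← sq_abs (f φ)]
          exact pow_le_pow_left₀ (abs_nonneg _) (f.le_opNorm φ) 2
      _ = ‖f‖ ^ 2 * ‖φ‖ ^ 2 := by ring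
      _ ≤ ‖f‖ ^ 2 * K := mul_le_mul_of_nonneg_left h2 (by positivity)
  rw [div_lt_iff₀ (by positivity)] at hK
  nlinarith

/-- restriction as a continuous linear map -/
noncomputable def rsL (S : Set Idx) (hS : PC S) : Y0 →L[ℝ] Y0 :=
  LinearMap.mkContinuous
    { toFun := fun φ => toF.symm (rs S (toF φ))
      map_add' := fun φ ψ => by
        apply toF.injective
        ext s
        by_cases h : s ∈ S
        · simp [rs_apply_of_mem h]
        · simp [rs_apply_of_notMem h]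
      map_smul' := fun r φ => by
        apply toF.injective
        ext s
        by_cases h : s ∈ S
        · simp [rs_apply_of_mem h]
        · simp [rs_apply_of_notMem h] } 1
    (fun φ => by
      rw [one_mul, norm_def, norm_def]
      simpa using nrm_rs_le hS (toF φ))

lemma toF_rsL (S : Set Idx) (hS : PC S) (φ : Y0) : toF (rsL S hS φ) = rs S (toF φ) := by
  simp [rsL]

lemma norm_rsL_apply_le (S : Set Idx) (hS : PC S) (φ : Y0) : ‖rsL S hS φ‖ ≤ ‖φ‖ := by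
  rw [norm_def, norm_def, toF_rsL]
  exact nrm_rs_le hS _

lemma pc_low (m : ℕ) : PC {s : Idx | s.1 < m} := fun _ _ _ h => h

/-- restriction to components `< m`. -/
noncomputable def QL (m : ℕ) : Y0 →L[ℝ] Y0 := rsL {s : Idx | s.1 < m} (pc_low m)

lemma toF_QL (m : ℕ) (φ : Y0) : toF (QL m φ) = lowPart m (toF φ) := toF_rsL _ _ _

lemma norm_QL_le (m : ℕ) (φ : Y0) : ‖QL m φ‖ ≤ ‖φ‖ := norm_rsL_apply_le _ _ _

lemma norm_sq_decomp (m : ℕ) (φ : Y0) : ‖QL m φ‖ ^ 2 + ‖φ - QL m φ‖ ^ 2 ≤ ‖φ‖ ^ 2 := by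
  rw [norm_def, norm_def, norm_def, map_sub, toF_QL]
  exact nrm_sq_decomp m _

lemma low_QL (m : ℕ) (φ : Y0) : Low m (toF (QL m φ)) := by
  rw [toF_QL]; exact low_lowPart _ _

lemma high_sub_QL (m : ℕ) (φ : Y0) : High m (toF (φ - QL m φ)) := by
  rw [map_sub, toF_QL]; exact high_sub_lowPart _ _

lemma QL_of_low {m : ℕ} {φ : Y0} (h : Low m (toF φ)) : QL m φ = φ := by
  apply toF.injective
  rw [toF_QL]
  ext s
  by_cases hs : s.1 < m
  · exact rs_apply_of_mem (by simpa using hs)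
  · rw [lowPart, rs_apply_of_notMem (by simpa using hs), h s (by omega)]

lemma QL_of_high {m : ℕ} {φ : Y0} (h : High m (toF φ)) : QL m φ = 0 := by
  apply toF.injective
  rw [toF_QL, map_zero]
  ext s
  by_cases hs : s.1 < m
  · rw [lowPart, rs_apply_of_mem (by simpa using hs), h s hs]; rfl
  · rw [lowPart, rs_apply_of_notMem (by simpa using hs)]; rfl

lemma norm_comp_QL_le (f : X0) (m : ℕ) : ‖f.comp (QL m)‖ ≤ ‖f‖ := by
  apply ContinuousLinearMap.opNorm_le_bound _ (norm_nonneg _)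
  intro φ
  rw [ContinuousLinearMap.comp_apply]
  exact (f.le_opNorm _).trans (mul_le_mul_of_nonneg_left (norm_QL_le m φ) (norm_nonneg _))

lemma norm_sub_comp_QL_le (f : X0) (m : ℕ) {ε : ℝ} (hε : 0 ≤ ε)
    (h : ∀ φ : Y0, High m (toF φ) → |f φ| ≤ ε * ‖φ‖) : ‖f - f.comp (QL m)‖ ≤ ε := by
  apply ContinuousLinearMap.opNorm_le_bound _ hε
  intro φ
  have h1 : (f - f.comp (QL m)) φ = f (φ - QL m φ) := by
    simp [map_sub]
  rw [h1, Real.norm_eq_abs]
  refine (h _ (high_sub_QL m φ)).trans (mul_le_mul_of_nonneg_left ?_ hε)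
  have := norm_sq_decomp m φ
  exact le_of_sq_le_sq (by nlinarith [sq_nonneg ‖QL m φ‖]) (norm_nonneg _)

/-- blocks in the dual -/
lemma norm_add_dual {m : ℕ} {g h : X0} (hg : ∀ φ : Y0, High m (toF φ) → g φ = 0)
    (hh : ∀ φ : Y0, Low m (toF φ) → h φ = 0) : ‖g + h‖ ^ 2 ≤ ‖g‖ ^ 2 + ‖h‖ ^ 2 := by
  have key : ‖g + h‖ ≤ Real.sqrt (‖g‖ ^ 2 + ‖h‖ ^ 2) := by
    apply ContinuousLinearMap.opNorm_le_bound _ (Real.sqrt_nonneg _)
    intro φ
    have h1 : (g + h) φ = g (QL m φ) + h (φ - QL m φ) := by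
      have e1 : g φ = g (QL m φ) := by
        have := hg _ (high_sub_QL m φ)
        rw [map_sub] at this; linarith
      have e2 : h (φ - QL m φ) = h φ := by
        rw [map_sub, hh _ (low_QL m φ), sub_zero]
      rw [e2, ← e1]; rfl
    rw [h1, Real.norm_eq_abs]
    have h2 : |g (QL m φ) + h (φ - QL m φ)| ≤ ‖g‖ * ‖QL m φ‖ + ‖h‖ * ‖φ - QL m φ‖ :=
      (abs_add_le _ _).trans (add_le_add (g.le_opNorm _) (h.le_opNorm _))
    refine h2.trans ?_
    apply le_of_sq_le_sq _ (by positivity)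
    rw [mul_pow, Real.sq_sqrt (by positivity)]
    have h3 := norm_sq_decomp m φ
    calc (‖g‖ * ‖QL m φ‖ + ‖h‖ * ‖φ - QL m φ‖) ^ 2
        ≤ (‖g‖ ^ 2 + ‖h‖ ^ 2) * (‖QL m φ‖ ^ 2 + ‖φ - QL m φ‖ ^ 2) := by
          nlinarith [sq_nonneg (‖g‖ * ‖φ - QL m φ‖ - ‖h‖ * ‖QL m φ‖)]
      _ ≤ _ := mul_le_mul_of_nonneg_left h3 (by positivity)
  calc ‖g + h‖ ^ 2 ≤ (Real.sqrt (‖g‖ ^ 2 + ‖h‖ ^ 2)) ^ 2 :=
        pow_le_pow_left₀ (norm_nonneg _) key 2
    _ = _ := Real.sq_sqrt (by positivity)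

/-- second dual functionals are small far out -/
lemma tail_small₂ (F : StrongDual ℝ X0) {ε : ℝ} (hε : 0 < ε) :
    ∃ m, ∀ g : X0, (∀ φ : Y0, Low m (toF φ) → g φ = 0) → |F g| ≤ ε * ‖g‖ := by
  by_contra hcon
  push Not at hcon
  have hblock : ∀ m, ∃ m', ∃ g : X0, (∀ φ : Y0, Low m (toF φ) → g φ = 0) ∧
      (∀ φ : Y0, High m' (toF φ) → g φ = 0) ∧ ‖g‖ ≤ 1 ∧ ε / 2 ≤ F g := by
    intro m
    have h0 : ∃ g : X0, (∀ φ : Y0, Low m (toF φ) → g φ = 0) ∧ ‖g‖ ≤ 1 ∧ ε ≤ F g := by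
      obtain ⟨g, h1, h2⟩ := hcon m
      have hg0 : ‖g‖ ≠ 0 := by
        intro h0
        have : g = 0 := norm_eq_zero.1 h0
        rw [this] at h2
        simp at h2
      have hpos : 0 < ‖g‖ := lt_of_le_of_ne (norm_nonneg _) (Ne.symm hg0)
      rcases le_total 0 (F g) with h3 | h3
      · refine ⟨‖g‖⁻¹ • g, ?_, ?_, ?_⟩
        · intro φ hφ
          simp [h1 φ hφ]
        · rw [norm_smul, norm_inv, norm_norm, inv_mul_cancel₀ hg0]
        · rw [map_smul, smul_eq_mul, le_inv_mul_iff₀ hpos]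
          rw [abs_of_nonneg h3] at h2
          linarith
      · refine ⟨-(‖g‖⁻¹ • g), ?_, ?_, ?_⟩
        · intro φ hφ
          simp [h1 φ hφ]
        · rw [norm_neg, norm_smul, norm_inv, norm_norm, inv_mul_cancel₀ hg0]
        · rw [map_neg, map_smul, smul_eq_mul, ← mul_neg, le_inv_mul_iff₀ hpos]
          rw [abs_of_nonpos h3] at h2
          linarith
    obtain ⟨g, h1, h2, h3⟩ := h0
    obtain ⟨m', hm'⟩ := tail_small g (ε := ε / (2 * (‖F‖ + 1))) (by positivity)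
    refine ⟨m', g.comp (QL m'), ?_, ?_, ?_, ?_⟩
    · intro φ hφ
      rw [ContinuousLinearMap.comp_apply]
      apply h1
      intro s hs
      rw [toF_QL, lowPart]
      by_cases h : s ∈ {s : Idx | s.1 < m'}
      · rw [rs_apply_of_mem h]; exact hφ s hs
      · rw [rs_apply_of_notMem h]
    · intro φ hφ
      rw [ContinuousLinearMap.comp_apply, QL_of_high hφ, map_zero]
    · exact (norm_comp_QL_le g m').trans h2
    · have h4 := norm_sub_comp_QL_le g m' (by positivity) hm'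
      have h5 : |F (g - g.comp (QL m'))| ≤ ‖F‖ * (ε / (2 * (‖F‖ + 1))) :=
        (F.le_opNorm _).trans (mul_le_mul_of_nonneg_left h4 (norm_nonneg _))
      have h6 : ‖F‖ * (ε / (2 * (‖F‖ + 1))) ≤ ε / 2 := by
        rw [mul_div_assoc', div_le_div_iff₀ (by positivity) (by positivity)]
        nlinarith [norm_nonneg F]
      rw [map_sub] at h5
      have := (abs_le.1 (h5.trans h6)).2
      linarith
  have hsum : ∀ K : ℕ, ∀ m, ∃ g : X0, (∀ φ : Y0, Low m (toF φ) → g φ = 0) ∧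
      ‖g‖ ^ 2 ≤ K ∧ K * (ε / 2) ≤ F g := by
    intro K
    induction K with
    | zero => intro m; exact ⟨0, by simp, by simp, by simp⟩
    | succ K ih =>
      intro m
      obtain ⟨m', g, h1, h1', h2, h3⟩ := hblock m
      obtain ⟨h, h4, h5, h6⟩ := ih (max m m')
      refine ⟨g + h, ?_, ?_, ?_⟩
      · intro φ hφ
        rw [_root_.add_apply, h1 φ hφ,
          h4 φ (fun s hs => hφ s (le_trans (le_max_left _ _) hs)), add_zero]
      · refine (norm_add_dual (m := max m m') (fun φ hφ => h1' φ ?_) h4).trans ?_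
        · exact high_mono (le_max_right _ _) hφ
        · push_cast
          nlinarith [norm_nonneg g]
      · rw [map_add]; push_cast; linarith
  obtain ⟨K, hK⟩ := exists_nat_gt (‖F‖ ^ 2 / (ε / 2) ^ 2)
  obtain ⟨g, -, h2, h3⟩ := hsum K 0
  have hKpos : (0:ℝ) < K := lt_of_le_of_lt (by positivity) hK
  have h4 : (K * (ε / 2)) ^ 2 ≤ ‖F‖ ^ 2 * K := by
    calc (K * (ε / 2)) ^ 2 ≤ (F g) ^ 2 := pow_le_pow_left₀ (by positivity) h3 2
      _ ≤ (‖F‖ * ‖g‖) ^ 2 := by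
          rw [← sq_abs (F g)]
          exact pow_le_pow_left₀ (abs_nonneg _) (F.le_opNorm g) 2
      _ = ‖F‖ ^ 2 * ‖g‖ ^ 2 := by ring
      _ ≤ ‖F‖ ^ 2 * K := mul_le_mul_of_nonneg_left h2 (by positivity)
  rw [div_lt_iff₀ (by positivity)] at hK
  nlinarith

/-- finite sets with small remainders -/
lemma exists_small_remainder (b : Idx → ℝ) (m : ℕ) (C : ℝ)
    (h : ∀ A : Finset Idx, (∀ s ∈ A, s.1 < m) → ∑ s ∈ A, b s ^ 2 ≤ C) {ε : ℝ} (hε : 0 < ε) :
    ∃ S : Finset Idx, (∀ s ∈ S, s.1 < m) ∧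
      ∀ A : Finset Idx, (∀ s ∈ A, s.1 < m) → Disjoint A S → ∑ s ∈ A, b s ^ 2 ≤ ε := by
  classical
  set c : Idx → ℝ := fun s => if s.1 < m then b s ^ 2 else 0 with hc
  have hc0 : ∀ s, 0 ≤ c s := fun s => by simp only [hc]; split_ifs <;> positivity
  have hsm : Summable c := by
    apply summable_of_sum_le hc0 (c := C)
    intro u
    have : ∑ s ∈ u, c s = ∑ s ∈ u.filter (fun s => s.1 < m), b s ^ 2 := by
      rw [Finset.sum_filter]
    rw [this]
    exact h _ (fun s hs => (Finset.mem_filter.1 hs).2)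
  obtain ⟨S, hS⟩ := (summable_iff_vanishing_norm.1 hsm) ε hε
  refine ⟨S.filter (fun s => s.1 < m), fun s hs => (Finset.mem_filter.1 hs).2, ?_⟩
  intro A hA hdisj
  have hd : Disjoint A S := by
    rw [Finset.disjoint_left] at hdisj ⊢
    intro s hs hs'
    exact hdisj hs (Finset.mem_filter.2 ⟨hs', hA s hs⟩)
  have h1 := hS A hd
  have h2 : ∑ s ∈ A, b s ^ 2 = ∑ s ∈ A, c s := by
    refine Finset.sum_congr rfl (fun s hs => ?_)
    simp [hc, hA s hs]
  rw [h2]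
  exact (le_abs_self _).trans h1.le

/-- predecessor closure of a finite set -/
lemma exists_pc (S : Finset Idx) : ∃ S' : Finset Idx, S ⊆ S' ∧ PC (S' : Set Idx) := by
  classical
  refine ⟨S.biUnion (fun s => (s.2.tails.toFinset).image (fun l => (s.1, l))), ?_, ?_⟩
  · intro s hs
    rw [Finset.mem_biUnion]
    refine ⟨s, hs, ?_⟩
    rw [Finset.mem_image]
    exact ⟨s.2, by simp, rfl⟩
  · intro n a l h
    simp only [Finset.coe_biUnion, Finset.coe_image, List.coe_toFinset, Set.mem_iUnion,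
      Set.mem_image, Set.mem_ofPred_eq, List.mem_tails] at h ⊢
    obtain ⟨s, hs, l', hl', he⟩ := h
    refine ⟨s, hs, l, ?_, ?_⟩
    · rw [Prod.mk.injEq] at he
      rw [he.2] at hl'
      exact (List.suffix_cons a l).trans hl'
    · rw [Prod.mk.injEq] at he ⊢
      exact ⟨he.1, rfl⟩

lemma apply_low_le (f : X0) (S : Finset Idx) (m : ℕ) {ε : ℝ}
    (h : ∀ A : Finset Idx, (∀ s ∈ A, s.1 < m) → Disjoint A S → ∑ s ∈ A, (f (dlt s)) ^ 2 ≤ ε)
    (φ : Y0) (hφ : Low m (toF φ)) (hS : ∀ s ∈ S, toF φ s = 0) :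
    |f φ| ≤ Real.sqrt ε * ‖φ‖ := by
  have hε : 0 ≤ ε := by simpa using h ∅ (by simp) (by simp)
  rw [apply_expand f φ]
  have hA : ∀ s ∈ (toF φ).support, s.1 < m := by
    intro s hs
    by_contra hc
    exact (Finsupp.mem_support_iff.1 hs) (hφ s (by omega))
  have hD : Disjoint (toF φ).support S := by
    rw [Finset.disjoint_left]
    intro s hs hs'
    exact (Finsupp.mem_support_iff.1 hs) (hS s hs')
  have h1 := h _ hA hD
  have h2 := Finset.sum_mul_sq_le_sq_mul_sq (toF φ).support (fun s => toF φ s) (fun s => f (dlt s))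
  have h3 := sum_sq_le (toF φ).support (toF φ)
  apply abs_le_of_sq_le_sq _ (by positivity)
  rw [mul_pow, Real.sq_sqrt hε, norm_def]
  calc _ ≤ _ := h2
    _ ≤ nrm (toF φ) ^ 2 * ε := mul_le_mul h3 h1 (Finset.sum_nonneg (fun _ _ => sq_nonneg _))
        (by positivity)
    _ = _ := by ring

/-- (a) density of finite combinations of the coordinate functionals, in a convenient form -/
lemma approx (f : X0) {ε : ℝ} (hε : 0 < ε) :
    ∃ S : Finset Idx, PC (S : Set Idx) ∧ ∀ φ : Y0, (∀ s ∈ S, toF φ s = 0) → |f φ| ≤ ε * ‖φ‖ := by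
  obtain ⟨m, hm⟩ := tail_small f (ε := ε / 2) (by positivity)
  obtain ⟨S, hS1, hS2⟩ := exists_small_remainder (fun s => f (dlt s)) m ((1 + m) * ‖f‖ ^ 2)
    (fun A hA => sum_sq_apply_le f A hA) (ε := (ε / 2) ^ 2) (by positivity)
  obtain ⟨S', hSS', hPC⟩ := exists_pc S
  refine ⟨S', hPC, ?_⟩
  intro φ hφ
  have h1 : f φ = f (QL m φ) + f (φ - QL m φ) := by rw [map_sub]; ring
  have h2 : |f (QL m φ)| ≤ Real.sqrt ((ε / 2) ^ 2) * ‖QL m φ‖ := by
    apply apply_low_le f S m hS2 _ (low_QL m φ)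
    intro s hs
    rw [toF_QL, lowPart]
    by_cases h : s ∈ {s : Idx | s.1 < m}
    · rw [rs_apply_of_mem h]; exact hφ s (hSS' hs)
    · rw [rs_apply_of_notMem h]
  rw [Real.sqrt_sq (by positivity)] at h2
  have h3 := hm _ (high_sub_QL m φ)
  have h4 := norm_QL_le m φ
  have h5 : ‖φ - QL m φ‖ ≤ ‖φ‖ := by
    have := norm_sq_decomp m φ
    exact le_of_sq_le_sq (by nlinarith [sq_nonneg ‖QL m φ‖]) (norm_nonneg _)
  rw [h1]
  calc |f (QL m φ) + f (φ - QL m φ)| ≤ |f (QL m φ)| + |f (φ - QL m φ)| := abs_add_le _ _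
    _ ≤ ε / 2 * ‖QL m φ‖ + ε / 2 * ‖φ - QL m φ‖ := add_le_add h2 h3
    _ ≤ ε / 2 * ‖φ‖ + ε / 2 * ‖φ‖ := by
        apply add_le_add
        · exact mul_le_mul_of_nonneg_left h4 (by positivity)
        · exact mul_le_mul_of_nonneg_left h5 (by positivity)
    _ = ε * ‖φ‖ := by ring

end Vale.Agent.P069h23
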