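import Vale.Agent.P069_h23.Reflexive
import Vale.Agent.P069_h23.Defs

namespace Vale.Agent.P069h23

lemma apply_sum_Ef (F : StrongDual ℝ X0) (A : Finset Idx) (c : Idx → ℝ) :
    F (∑ s ∈ A, c s • Ef s) = ∑ s ∈ A, c s * F (Ef s) := by
  rw [map_sum]
  refine Finset.sum_congr rfl (fun s _ => ?_)
  rw [map_smul, smul_eq_mul]

lemma sum_sq_second_le (F : StrongDual ℝ X0) (A : Finset Idx) :
    ∑ s ∈ A, (F (Ef s)) ^ 2 ≤ ‖F‖ ^ 2 := by
  set T := ∑ s ∈ A, (F (Ef s)) ^ 2 with hT
  have hT0 : 0 ≤ T := Finset.sum_nonneg (fun _ _ => sq_nonneg _)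
  have h1 : F (∑ s ∈ A, (F (Ef s)) • Ef s) = T := by
    rw [apply_sum_Ef, hT]
    refine Finset.sum_congr rfl (fun s _ => by ring)
  have h2 : T ≤ ‖F‖ * Real.sqrt T := by
    calc T = F (∑ s ∈ A, (F (Ef s)) • Ef s) := h1.symm
      _ ≤ ‖F‖ * ‖∑ s ∈ A, (F (Ef s)) • Ef s‖ := (le_abs_self _).trans (F.le_opNorm _)
      _ ≤ _ := mul_le_mul_of_nonneg_left (norm_sum_Ef_le A _) (norm_nonneg F)
  have h3 : Real.sqrt T * Real.sqrt T = T := Real.mul_self_sqrt hT0
  rcases (Real.sqrt_nonneg T).eq_or_lt with h0 | h0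
  · rw [← h3, ← h0]; nlinarith [sq_nonneg ‖F‖]
  · have h4 : Real.sqrt T ≤ ‖F‖ := by
      have : Real.sqrt T * Real.sqrt T ≤ ‖F‖ * Real.sqrt T := by rw [h3]; exact h2
      exact le_of_mul_le_mul_right this h0
    nlinarith

/-- the canonical embedding of `Y0` in the dual of `X0`. -/
noncomputable abbrev J : Y0 →L[ℝ] StrongDual ℝ X0 := NormedSpace.inclusionInDoubleDual ℝ Y0

lemma J_apply (ψ : Y0) (g : X0) : J ψ g = g ψ := rfl

lemma norm_sub_comp_le (g : X0) (m : ℕ) : ‖g - g.comp (QL m)‖ ≤ ‖g‖ :=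
  norm_sub_comp_QL_le g m (norm_nonneg _) (fun φ _ => g.le_opNorm φ)

lemma toF_sum_smul_dlt (U : Finset Idx) (c : Idx → ℝ) (s : Idx) :
    toF (∑ s ∈ U, c s • dlt s) s = if s ∈ U then c s else 0 := by
  classical
  rw [map_sum, Finsupp.finsetSum_apply]
  have : ∀ x ∈ U, (toF (c x • dlt x)) s = if x = s then c s else 0 := by
    intro x _
    rw [map_smul, toF_dlt, Finsupp.smul_apply, Finsupp.single_apply]
    split_ifs with h
    · subst h; simp
    · simp
  rw [Finset.sum_congr rfl this, Finset.sum_ite_eq' U s]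

lemma approx_second (F : StrongDual ℝ X0) {ε : ℝ} (hε : 0 < ε) :
    ∃ ψ : Y0, ‖F - J ψ‖ ≤ ε := by
  classical
  obtain ⟨m, hm⟩ := tail_small₂ F (ε := ε / 2) (by positivity)
  obtain ⟨S, hS1, hS2⟩ := exists_small_remainder (fun s => F (Ef s)) m (‖F‖ ^ 2)
    (fun A _ => sum_sq_second_le F A) (ε := (ε / 2) ^ 2 / (1 + m)) (by positivity)
  refine ⟨∑ s ∈ S, F (Ef s) • dlt s, ?_⟩
  apply ContinuousLinearMap.opNorm_le_bound _ hε.le
  intro g
  set h : X0 := g.comp (QL m) - ∑ s ∈ S, g (dlt s) • Ef s with hh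
  have e1 : (F - J (∑ s ∈ S, F (Ef s) • dlt s)) g = F (g - g.comp (QL m)) + F h := by
    rw [hh, map_sub, map_sub, apply_sum_Ef]
    have : (F - J (∑ s ∈ S, F (Ef s) • dlt s)) g = F g - g (∑ s ∈ S, F (Ef s) • dlt s) := rfl
    rw [this, map_sum]
    have : ∑ s ∈ S, g (F (Ef s) • dlt s) = ∑ s ∈ S, g (dlt s) * F (Ef s) := by
      refine Finset.sum_congr rfl (fun s _ => ?_)
      rw [map_smul, smul_eq_mul, mul_comm]
    rw [this]; ring
  have b1 : |F (g - g.comp (QL m))| ≤ ε / 2 * ‖g‖ := by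
    refine (hm _ ?_).trans (mul_le_mul_of_nonneg_left (norm_sub_comp_le g m) (by positivity))
    intro φ hφ
    have : (g - g.comp (QL m)) φ = g φ - g (QL m φ) := rfl
    rw [this, QL_of_low hφ, sub_self]
  have b2 : |F h| ≤ ε / 2 * ‖g‖ := by
    apply le_of_forall_pos_le_add
    intro η hη
    obtain ⟨S1, hS1', hS1''⟩ := approx (g.comp (QL m)) (ε := η / (2 * (‖F‖ + 1))) (by positivity)
    obtain ⟨U, hU1, hU2⟩ := exists_pc (S ∪ S1)
    set U' := U.filter (fun s => s.1 < m) with hU'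
    have hSU : S ⊆ U' := by
      intro s hs
      rw [hU', Finset.mem_filter]
      exact ⟨hU1 (Finset.mem_union_left _ hs), hS1 s hs⟩
    set A := U' \ S with hA
    have hsum : ∑ s ∈ U', g (dlt s) • Ef s =
        ∑ s ∈ A, g (dlt s) • Ef s + ∑ s ∈ S, g (dlt s) • Ef s :=
      (Finset.sum_sdiff hSU).symm
    have c1 : ‖g.comp (QL m) - ∑ s ∈ U', g (dlt s) • Ef s‖ ≤ η / (‖F‖ + 1) := by
      apply ContinuousLinearMap.opNorm_le_bound _ (by positivity)
      intro φ
      have hev : (g.comp (QL m) - ∑ s ∈ U', g (dlt s) • Ef s) φ =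
          (g.comp (QL m)) (φ - rsL (U : Set Idx) hU2 φ) := by
        rw [map_sub]
        have d1 : (g.comp (QL m) - ∑ s ∈ U', g (dlt s) • Ef s) φ =
          (g.comp (QL m)) φ - ∑ s ∈ U', toF φ s * g (dlt s) := by
          rw [_root_.sub_apply, _root_.sum_apply]
          congr 1
          refine Finset.sum_congr rfl (fun s _ => ?_)
          rw [_root_.smul_apply, Ef_apply, smul_eq_mul, mul_comm]
        rw [d1]
        congr 1
        rw [ContinuousLinearMap.comp_apply]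
        have d2 : QL m (rsL (U : Set Idx) hU2 φ) = ∑ s ∈ U', toF φ s • dlt s := by
          apply toF.injective
          ext s
          rw [toF_sum_smul_dlt, toF_QL, lowPart, toF_rsL]
          by_cases h1 : s ∈ {s : Idx | s.1 < m}
          · rw [rs_apply_of_mem h1]
            by_cases h2 : s ∈ (U : Set Idx)
            · rw [rs_apply_of_mem h2, if_pos]
              rw [hU', Finset.mem_filter]; exact ⟨h2, h1⟩
            · rw [rs_apply_of_notMem h2, if_neg]
              rw [hU', Finset.mem_filter]; exact fun h => h2 h.1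
          · rw [rs_apply_of_notMem h1, if_neg]
            rw [hU', Finset.mem_filter]; exact fun h => h1 h.2
        rw [d2, map_sum]
        refine Finset.sum_congr rfl (fun s _ => ?_)
        rw [map_smul, smul_eq_mul]
      rw [hev, Real.norm_eq_abs]
      refine (hS1'' _ ?_).trans ?_
      · intro s hs
        rw [map_sub, Finsupp.sub_apply, toF_rsL, rs_apply_of_mem, sub_self]
        exact hU1 (Finset.mem_union_right _ hs)
      · have c2 : ‖φ - rsL (U : Set Idx) hU2 φ‖ ≤ 2 * ‖φ‖ := by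
          refine (norm_sub_le _ _).trans ?_
          have := norm_rsL_apply_le (U : Set Idx) hU2 φ
          linarith
        calc η / (2 * (‖F‖ + 1)) * ‖φ - rsL (U : Set Idx) hU2 φ‖
            ≤ η / (2 * (‖F‖ + 1)) * (2 * ‖φ‖) := mul_le_mul_of_nonneg_left c2 (by positivity)
          _ = η / (‖F‖ + 1) * ‖φ‖ := by
            have := norm_nonneg F
            field_simp
    have c3 : F h = F (g.comp (QL m) - ∑ s ∈ U', g (dlt s) • Ef s) +
        ∑ s ∈ A, g (dlt s) * F (Ef s) := by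
      rw [← apply_sum_Ef F A (fun s => g (dlt s)), ← map_add, hh]
      congr 1
      rw [hsum]; abel
    have c4 : |F (g.comp (QL m) - ∑ s ∈ U', g (dlt s) • Ef s)| ≤ η := by
      refine (F.le_opNorm _).trans ?_
      calc ‖F‖ * ‖g.comp (QL m) - ∑ s ∈ U', g (dlt s) • Ef s‖
          ≤ ‖F‖ * (η / (‖F‖ + 1)) := mul_le_mul_of_nonneg_left c1 (norm_nonneg F)
        _ ≤ η := by
          rw [mul_div_assoc', div_le_iff₀ (by positivity)]
          nlinarith [norm_nonneg F]
    have hAm : ∀ s ∈ A, s.1 < m := by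
      intro s hs
      rw [hA, Finset.mem_sdiff, hU', Finset.mem_filter] at hs
      exact hs.1.2
    have c5 : |∑ s ∈ A, g (dlt s) * F (Ef s)| ≤ ε / 2 * ‖g‖ := by
      apply abs_le_of_sq_le_sq _ (by positivity)
      have h1 := Finset.sum_mul_sq_le_sq_mul_sq A (fun s => g (dlt s)) (fun s => F (Ef s))
      have h2 := sum_sq_apply_le g A hAm
      have h3 := hS2 A hAm (by rw [hA]; exact Finset.sdiff_disjoint)
      calc _ ≤ _ := h1
        _ ≤ ((1 + m) * ‖g‖ ^ 2) * ((ε / 2) ^ 2 / (1 + m)) :=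
          mul_le_mul h2 h3 (Finset.sum_nonneg (fun _ _ => sq_nonneg _)) (by positivity)
        _ = (ε / 2 * ‖g‖) ^ 2 := by
          have : (0:ℝ) < 1 + m := by positivity
          field_simp
    rw [c3]
    refine (abs_add_le _ _).trans ?_
    linarith
  rw [e1, Real.norm_eq_abs]
  refine (abs_add_le _ _).trans ?_
  linarith

theorem X0_reflexive : IsReflexive X0 := by
  intro Φ
  set f : X0 := Φ.comp J with hf
  refine ⟨f, ?_⟩
  ext F
  change F f = Φ F
  have key : ∀ ε : ℝ, 0 < ε → |F f - Φ F| ≤ ε * (‖f‖ + ‖Φ‖) := by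
    intro ε hε
    obtain ⟨ψ, hψ⟩ := approx_second F hε
    have h1 : J ψ f = Φ (J ψ) := rfl
    have h2 : F f - Φ F = (F - J ψ) f - Φ (F - J ψ) := by
      rw [map_sub, ← h1, _root_.sub_apply]; ring
    rw [h2]
    refine (abs_sub _ _).trans ?_
    have h3 : |(F - J ψ) f| ≤ ε * ‖f‖ :=
      ((F - J ψ).le_opNorm f).trans (mul_le_mul_of_nonneg_right hψ (norm_nonneg _))
    have h4 : |Φ (F - J ψ)| ≤ ‖Φ‖ * ε :=
      (Φ.le_opNorm _).trans (mul_le_mul_of_nonneg_left hψ (norm_nonneg _))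
    linarith
  have h0 : |F f - Φ F| ≤ 0 := by
    apply le_of_forall_pos_le_add
    intro η hη
    have := key (η / (‖f‖ + ‖Φ‖ + 1)) (by positivity)
    refine this.trans ?_
    rw [zero_add, div_mul_eq_mul_div, div_le_iff₀ (by positivity)]
    nlinarith [norm_nonneg f, norm_nonneg Φ]
  have := abs_nonpos_iff.1 h0
  linarith

end Vale.Agent.P069h23
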