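import Mathlib

namespace Vale.Agent.P069h23

/-- nodes: `(n, l)` is the node `l` of the `n`-th tree. -/
abbrev Idx := ℕ × List ℕ

/-- coordinates -/
abbrev Jdx := Idx ⊕ ℕ

/-- choice of a node of height at most `n` in the `n`-th tree, for every `n`. -/
abbrev Choice := {c : ℕ → List ℕ // ∀ n, (c n).length ≤ n}

instance : Inhabited Choice := ⟨⟨fun _ => [], fun n => by simp⟩⟩

/-- path sums -/
def psum (φ : Idx →₀ ℝ) (n : ℕ) : List ℕ → ℝ
  | [] => φ (n, [])
  | (a :: l) => φ (n, a :: l) + psum φ n l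

@[simp] lemma psum_nil (φ : Idx →₀ ℝ) (n : ℕ) : psum φ n [] = φ (n, []) := rfl
@[simp] lemma psum_cons (φ : Idx →₀ ℝ) (n : ℕ) (a : ℕ) (l : List ℕ) :
    psum φ n (a :: l) = φ (n, a :: l) + psum φ n l := rfl

lemma psum_add (φ ψ : Idx →₀ ℝ) (n : ℕ) (l : List ℕ) :
    psum (φ + ψ) n l = psum φ n l + psum ψ n l := by
  induction l with
  | nil => simp
  | cons a l ih => simp only [psum_cons, ih, Finsupp.add_apply]; ring

lemma psum_smul (c : ℝ) (φ : Idx →₀ ℝ) (n : ℕ) (l : List ℕ) :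
    psum (c • φ) n l = c * psum φ n l := by
  induction l with
  | nil => simp
  | cons a l ih => simp only [psum_cons, ih, Finsupp.smul_apply, smul_eq_mul]; ring

/-- all coordinates of `φ` with respect to a choice `c`. -/
def co (c : Choice) (φ : Idx →₀ ℝ) : Jdx → ℝ
  | Sum.inl s => φ s
  | Sum.inr n => psum φ n (c.1 n)

@[simp] lemma co_inl (c : Choice) (φ : Idx →₀ ℝ) (s : Idx) : co c φ (Sum.inl s) = φ s := rfl
@[simp] lemma co_inr (c : Choice) (φ : Idx →₀ ℝ) (n : ℕ) :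
    co c φ (Sum.inr n) = psum φ n (c.1 n) := rfl

lemma co_add (c : Choice) (φ ψ : Idx →₀ ℝ) (i : Jdx) : co c (φ + ψ) i = co c φ i + co c ψ i := by
  rcases i with s | n
  · simp
  · simp [psum_add]

lemma co_smul (c : Choice) (r : ℝ) (φ : Idx →₀ ℝ) (i : Jdx) : co c (r • φ) i = r * co c φ i := by
  rcases i with s | n
  · simp
  · simp [psum_smul]

/-- the Euclidean semi-norm maps -/
noncomputable def L (p : Choice × Finset Jdx) : (Idx →₀ ℝ) →ₗ[ℝ] EuclideanSpace ℝ p.2 where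
  toFun φ := WithLp.toLp 2 (fun i => co p.1 φ i.1)
  map_add' φ ψ := by
    ext i; simp [co_add]
  map_smul' r φ := by
    ext i; simp [co_smul]

lemma L_norm_sq (p : Choice × Finset Jdx) (φ : Idx →₀ ℝ) :
    ‖L p φ‖ ^ 2 = ∑ i ∈ p.2, (co p.1 φ i) ^ 2 := by
  rw [EuclideanSpace.norm_sq_eq]
  simp only [L, LinearMap.coe_mk, AddHom.coe_mk, Real.norm_eq_abs, sq_abs]
  exact Finset.sum_coe_sort p.2 (fun i => (co p.1 φ i) ^ 2)

lemma psum_single_other (s : Idx) (n : ℕ) (h : n ≠ s.1) (r : ℝ) (l : List ℕ) :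
    psum (Finsupp.single s r) n l = 0 := by
  induction l with
  | nil =>
    simp only [psum_nil]
    rw [Finsupp.single_apply, if_neg]
    rintro rfl; exact h rfl
  | cons a l ih =>
    simp only [psum_cons, ih, add_zero]
    rw [Finsupp.single_apply, if_neg]
    rintro rfl; exact h rfl

lemma psum_single_cases (s : Idx) (n : ℕ) (l : List ℕ) :
    psum (Finsupp.single s (1 : ℝ)) n l = 0 ∨
      (psum (Finsupp.single s (1 : ℝ)) n l = 1 ∧ s.2.length ≤ l.length) := by
  induction l with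
  | nil =>
    simp only [psum_nil, Finsupp.single_apply]
    by_cases h : s = (n, [])
    · right; subst h; simp
    · left; simp [h]
  | cons a l ih =>
    simp only [psum_cons, Finsupp.single_apply]
    by_cases h : s = (n, a :: l)
    · rcases ih with h0 | ⟨_, h1⟩
      · right; rw [h0]; subst h; simp
      · exfalso; subst h; simp at h1
    · rw [if_neg h, zero_add]
      rcases ih with h0 | ⟨h0, h1⟩
      · left; exact h0
      · right; exact ⟨h0, by simp; omega⟩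

lemma L_single_le (p : Choice × Finset Jdx) (s : Idx) :
    ‖L p (Finsupp.single s (1 : ℝ))‖ ≤ 2 := by
  have h : ‖L p (Finsupp.single s (1 : ℝ))‖ ^ 2 ≤ 2 := by
    rw [L_norm_sq]
    have h1 : ∑ i ∈ p.2, (co p.1 (Finsupp.single s (1 : ℝ)) i) ^ 2 ≤
        ∑ i ∈ ({Sum.inl s, Sum.inr s.1} : Finset Jdx), (co p.1 (Finsupp.single s (1 : ℝ)) i) ^ 2 := by
      classical
      rw [← Finset.sum_filter_add_sum_filter_not p.2
        (fun i => i ∈ ({Sum.inl s, Sum.inr s.1} : Finset Jdx))]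
      have h2 : ∑ i ∈ p.2.filter (fun i => ¬ i ∈ ({Sum.inl s, Sum.inr s.1} : Finset Jdx)),
          (co p.1 (Finsupp.single s (1 : ℝ)) i) ^ 2 = 0 := by
        apply Finset.sum_eq_zero
        intro i hi
        simp only [Finset.mem_filter, Finset.mem_insert, Finset.mem_singleton, not_or] at hi
        rcases i with s' | n
        · have : s' ≠ s := fun h => hi.2.1 (by rw [h])
          simp [this.symm]
        · have : n ≠ s.1 := fun h => hi.2.2 (by rw [h])
          simp [psum_single_other s n this]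
      rw [h2, add_zero]
      apply Finset.sum_le_sum_of_subset_of_nonneg
      · intro i hi
        simp only [Finset.mem_filter] at hi
        exact hi.2
      · intros; positivity
    refine h1.trans ?_
    rw [Finset.sum_pair (by simp)]
    have h3 : (co p.1 (Finsupp.single s (1 : ℝ)) (Sum.inl s)) ^ 2 = 1 := by simp
    have h4 : (co p.1 (Finsupp.single s (1 : ℝ)) (Sum.inr s.1)) ^ 2 ≤ 1 := by
      rcases psum_single_cases s s.1 (p.1.1 s.1) with h | ⟨h, _⟩
      · simp [h]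
      · simp [h]
    linarith
  nlinarith [norm_nonneg (L p (Finsupp.single s (1 : ℝ)))]

lemma L_bound (p : Choice × Finset Jdx) (φ : Idx →₀ ℝ) :
    ‖L p φ‖ ≤ ∑ s ∈ φ.support, |φ s| * 2 := by
  have h : L p φ = ∑ s ∈ φ.support, φ s • L p (Finsupp.single s (1 : ℝ)) := by
    conv_lhs => rw [← Finsupp.sum_single φ]
    rw [Finsupp.sum, map_sum]
    refine Finset.sum_congr rfl (fun s _ => ?_)
    rw [← map_smul]; simp
  rw [h]
  refine (norm_sum_le _ _).trans (Finset.sum_le_sum (fun s _ => ?_))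
  rw [norm_smul, Real.norm_eq_abs]
  exact mul_le_mul_of_nonneg_left (L_single_le p s) (abs_nonneg _)

/-- the norm -/
noncomputable def nrm (φ : Idx →₀ ℝ) : ℝ := ⨆ p : Choice × Finset Jdx, ‖L p φ‖

lemma bdd (φ : Idx →₀ ℝ) : BddAbove (Set.range (fun p : Choice × Finset Jdx => ‖L p φ‖)) :=
  ⟨∑ s ∈ φ.support, |φ s| * 2, by rintro _ ⟨p, rfl⟩; exact L_bound p φ⟩

lemma L_le_nrm (p : Choice × Finset Jdx) (φ : Idx →₀ ℝ) : ‖L p φ‖ ≤ nrm φ :=
  le_ciSup (bdd φ) p

lemma nrm_nonneg (φ : Idx →₀ ℝ) : 0 ≤ nrm φ :=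
  (norm_nonneg _).trans (L_le_nrm (default, ∅) φ)

lemma nrm_le {φ : Idx →₀ ℝ} {C : ℝ} (h : ∀ p, ‖L p φ‖ ≤ C) : nrm φ ≤ C :=
  ciSup_le h

lemma sum_le_nrm_sq (c : Choice) (A : Finset Jdx) (φ : Idx →₀ ℝ) :
    ∑ i ∈ A, (co c φ i) ^ 2 ≤ nrm φ ^ 2 := by
  have h := L_norm_sq (c, A) φ
  simp only at h
  rw [← h]
  exact pow_le_pow_left₀ (norm_nonneg _) (L_le_nrm (c, A) φ) 2

lemma nrm_sq_le {φ : Idx →₀ ℝ} {C : ℝ} (h : ∀ (c : Choice) (A : Finset Jdx),
    ∑ i ∈ A, (co c φ i) ^ 2 ≤ C) : nrm φ ^ 2 ≤ C := by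
  have hC : 0 ≤ C := by simpa using h default ∅
  have h1 : nrm φ ≤ Real.sqrt C := by
    apply nrm_le
    intro p
    apply Real.le_sqrt_of_sq_le
    rw [L_norm_sq]
    exact h p.1 p.2
  calc nrm φ ^ 2 ≤ (Real.sqrt C) ^ 2 := pow_le_pow_left₀ (nrm_nonneg _) h1 2
    _ = C := Real.sq_sqrt hC

lemma nrm_add_le (φ ψ : Idx →₀ ℝ) : nrm (φ + ψ) ≤ nrm φ + nrm ψ := by
  apply nrm_le
  intro p
  rw [map_add]
  exact (norm_add_le _ _).trans (add_le_add (L_le_nrm p φ) (L_le_nrm p ψ))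

lemma nrm_zero : nrm 0 = 0 := by
  apply le_antisymm _ (nrm_nonneg _)
  apply nrm_le
  intro p
  rw [map_zero, norm_zero]

lemma nrm_neg (φ : Idx →₀ ℝ) : nrm (-φ) = nrm φ := by
  have h : ∀ φ : Idx →₀ ℝ, nrm (-φ) ≤ nrm φ := by
    intro φ
    apply nrm_le
    intro p
    rw [map_neg, norm_neg]
    exact L_le_nrm p φ
  apply le_antisymm (h φ)
  have := h (-φ)
  rwa [neg_neg] at this

lemma nrm_smul_le (r : ℝ) (φ : Idx →₀ ℝ) : nrm (r • φ) ≤ |r| * nrm φ := by
  apply nrm_le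
  intro p
  rw [map_smul, norm_smul, Real.norm_eq_abs]
  exact mul_le_mul_of_nonneg_left (L_le_nrm p φ) (abs_nonneg _)

lemma abs_apply_le_nrm (φ : Idx →₀ ℝ) (s : Idx) : |φ s| ≤ nrm φ := by
  have h1 := sum_le_nrm_sq default {Sum.inl s} φ
  rw [Finset.sum_singleton] at h1
  simp only [co_inl] at h1
  exact abs_le_of_sq_le_sq h1 (nrm_nonneg _)

lemma eq_zero_of_nrm {φ : Idx →₀ ℝ} (h : nrm φ = 0) : φ = 0 := by
  ext s
  have := abs_apply_le_nrm φ s
  rw [h] at this
  simpa using this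

/-- the underlying vector space of finitely supported functions on the nodes, with the norm. -/
def Y0 : Type := Idx →₀ ℝ

noncomputable instance : AddCommGroup Y0 := inferInstanceAs (AddCommGroup (Idx →₀ ℝ))
noncomputable instance : Module ℝ Y0 := inferInstanceAs (Module ℝ (Idx →₀ ℝ))

/-- the identity map -/
noncomputable def toF : Y0 ≃ₗ[ℝ] (Idx →₀ ℝ) := LinearEquiv.refl ℝ (Idx →₀ ℝ)

noncomputable instance : NormedAddCommGroup Y0 :=
  AddGroupNorm.toNormedAddCommGroup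
    { toFun := fun φ => nrm (toF φ)
      map_zero' := by rw [map_zero, nrm_zero]
      add_le' := fun φ ψ => by rw [map_add]; exact nrm_add_le _ _
      neg' := fun φ => by rw [map_neg, nrm_neg]
      eq_zero_of_map_eq_zero' := fun φ h => by
        have := eq_zero_of_nrm h
        simpa using this }

lemma norm_def (φ : Y0) : ‖φ‖ = nrm (toF φ) := rfl

noncomputable instance : NormedSpace ℝ Y0 where
  norm_smul_le r φ := by
    rw [norm_def, norm_def, map_smul, Real.norm_eq_abs]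
    exact nrm_smul_le r _

end Vale.Agent.P069h23
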